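import Mathlib

/-!
Measure-theoretic core: if the contact set of a symmetric three-marginal problem consists of the
permutations of two graphs over the same set `S` whose four other pieces are pairwise disjoint,
then no optimal plan is a Monge plan.
-/

open MeasureTheory Set

set_option linter.unusedSimpArgs false

open scoped ENNReal

namespace Vale.Agent.P121

/-- `(x, y, z)` is a permutation of `(a, b, c)`. -/
def Perm3 {E : Type*} (a b c x y z : E) : Prop :=
  (x = a ∧ y = b ∧ z = c) ∨ (x = a ∧ y = c ∧ z = b) ∨ (x = b ∧ y = a ∧ z = c) ∨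
  (x = b ∧ y = c ∧ z = a) ∨ (x = c ∧ y = a ∧ z = b) ∨ (x = c ∧ y = b ∧ z = a)

variable {E : Type*} [MeasurableSpace E] [StandardBorelSpace E]

/-- one half of the counting argument -/
theorem count_aux
    (ν : Measure E) (S : Set E) (hS : MeasurableSet S)
    (hνS : ν Sᶜ = 0) (hfin : ν univ ≠ ∞)
    (F G F' G' : E → E) (hF : Measurable F) (hG : Measurable G)
    (hF' : Measurable F') (hG' : Measurable G')
    (iF : InjOn F S) (iG : InjOn G S)
    (lab : E → Fin 5)
    (l0 : ∀ s ∈ S, lab s = 0) (l1 : ∀ s ∈ S, lab (F s) = 1) (l2 : ∀ s ∈ S, lab (G s) = 2)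
    (l3 : ∀ s ∈ S, lab (F' s) = 3) (l4 : ∀ s ∈ S, lab (G' s) = 4)
    (μ : Measure E)
    (hμ : μ = ν + ν + ν.map F + ν.map G + ν.map F' + ν.map G')
    (T₂ T₃ : E → E) (hT₂ : Measurable T₂) (hT₃ : Measurable T₃)
    (mT₂ : μ.map T₂ = μ) (mT₃ : μ.map T₃ = μ)
    (hperm : ∀ᵐ x ∂μ, ∃ s ∈ S, Perm3 s (F s) (G s) x (T₂ x) (T₃ x) ∨
      Perm3 s (F' s) (G' s) x (T₂ x) (T₃ x))
    (B : Set E) (hB : MeasurableSet B) (hBS : B ⊆ S) :
    μ (B ∩ {x | T₂ x ∈ F '' S ∨ T₃ x ∈ F '' S}) = ν B := by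
  classical
  have mFS : MeasurableSet (F '' S) := hS.image_of_measurable_injOn hF iF
  have mFB : MeasurableSet (F '' B) := hB.image_of_measurable_injOn hF (iF.mono hBS)
  have mGB : MeasurableSet (G '' B) := hB.image_of_measurable_injOn hG (iG.mono hBS)
  have mA : MeasurableSet {x | T₂ x ∈ F '' S ∨ T₃ x ∈ F '' S} :=
    (hT₂ mFS).union (hT₃ mFS)
  -- basic facts on measures
  have hνinter : ∀ D : Set E, ν D = ν (D ∩ S) := fun D => by
    rw [measure_inter_conull hνS]
  have eF : ∀ s ∈ S, (F s ∈ F '' B ↔ s ∈ B) := fun s hs => by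
    constructor
    · rintro ⟨t, ht, hts⟩
      have := iF (hBS ht) hs hts
      rwa [← this]
    · exact fun h => ⟨s, h, rfl⟩
  have eG : ∀ s ∈ S, (G s ∈ G '' B ↔ s ∈ B) := fun s hs => by
    constructor
    · rintro ⟨t, ht, hts⟩
      have := iG (hBS ht) hs hts
      rwa [← this]
    · exact fun h => ⟨s, h, rfl⟩
  have labFB : ∀ x ∈ F '' B, lab x = 1 := by
    rintro x ⟨t, ht, rfl⟩; exact l1 t (hBS ht)
  have labGB : ∀ x ∈ G '' B, lab x = 2 := by
    rintro x ⟨t, ht, rfl⟩; exact l2 t (hBS ht)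
  have labFS : ∀ x ∈ F '' S, lab x = 1 := by
    rintro x ⟨t, ht, rfl⟩; exact l1 t ht
  have labB : ∀ x ∈ B, lab x = 0 := fun x hx => l0 x (hBS hx)
  have zero_of : ∀ (D : Set E), (∀ x ∈ D, x ∉ S) → ν D = 0 := fun D h => by
    rw [hνinter D]
    have : D ∩ S = ∅ := by
      ext x; simp only [mem_inter_iff, mem_empty_iff_false, iff_false, not_and]
      exact h x
    rw [this]; simp
  have hμFB : μ (F '' B) = ν B := by
    rw [hμ]
    simp only [Measure.add_apply]
    rw [Measure.map_apply hF mFB, Measure.map_apply hG mFB, Measure.map_apply hF' mFB,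
      Measure.map_apply hG' mFB]
    rw [zero_of (F '' B) (fun x hx hxS => by
      have h1 := labFB x hx; rw [l0 x hxS] at h1; exact absurd h1 (by decide))]
    rw [zero_of (G ⁻¹' (F '' B)) (fun x hx hxS => by
      have h1 := labFB _ hx; rw [l2 x hxS] at h1; exact absurd h1 (by decide))]
    rw [zero_of (F' ⁻¹' (F '' B)) (fun x hx hxS => by
      have h1 := labFB _ hx; rw [l3 x hxS] at h1; exact absurd h1 (by decide))]
    rw [zero_of (G' ⁻¹' (F '' B)) (fun x hx hxS => by
      have h1 := labFB _ hx; rw [l4 x hxS] at h1; exact absurd h1 (by decide))]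
    rw [hνinter (F ⁻¹' (F '' B)), hνinter B]
    have : F ⁻¹' (F '' B) ∩ S = B ∩ S := by
      ext x
      simp only [mem_inter_iff, mem_preimage, and_congr_left_iff]
      exact fun hx => eF x hx
    rw [this]; simp
  have hμGB : μ (G '' B) = ν B := by
    rw [hμ]
    simp only [Measure.add_apply]
    rw [Measure.map_apply hF mGB, Measure.map_apply hG mGB, Measure.map_apply hF' mGB,
      Measure.map_apply hG' mGB]
    rw [zero_of (G '' B) (fun x hx hxS => by
      have h1 := labGB x hx; rw [l0 x hxS] at h1; exact absurd h1 (by decide))]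
    rw [zero_of (F ⁻¹' (G '' B)) (fun x hx hxS => by
      have h1 := labGB _ hx; rw [l1 x hxS] at h1; exact absurd h1 (by decide))]
    rw [zero_of (F' ⁻¹' (G '' B)) (fun x hx hxS => by
      have h1 := labGB _ hx; rw [l3 x hxS] at h1; exact absurd h1 (by decide))]
    rw [zero_of (G' ⁻¹' (G '' B)) (fun x hx hxS => by
      have h1 := labGB _ hx; rw [l4 x hxS] at h1; exact absurd h1 (by decide))]
    rw [hνinter (G ⁻¹' (G '' B)), hνinter B]
    have : G ⁻¹' (G '' B) ∩ S = B ∩ S := by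
      ext x
      simp only [mem_inter_iff, mem_preimage, and_congr_left_iff]
      exact fun hx => eG x hx
    rw [this]; simp
  -- the pointwise identity
  have key : ∀ᵐ x ∂μ,
      (F '' B).indicator (1 : E → ℝ≥0∞) x + (F '' B).indicator (1 : E → ℝ≥0∞) (T₂ x)
        + (F '' B).indicator (1 : E → ℝ≥0∞) (T₃ x)
      = (B ∩ {x | T₂ x ∈ F '' S ∨ T₃ x ∈ F '' S}).indicator (1 : E → ℝ≥0∞) x
        + (F '' B).indicator (1 : E → ℝ≥0∞) x + (G '' B).indicator (1 : E → ℝ≥0∞) x := by
    filter_upwards [hperm] with x hx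
    obtain ⟨s, hs, hx⟩ := hx
    have a0 := l0 s hs
    have a1 := l1 s hs
    have a2 := l2 s hs
    have a3 := l3 s hs
    have a4 := l4 s hs
    have n1 : s ∉ F '' B := fun h => by
      have := labFB _ h; rw [a0] at this; exact absurd this (by decide)
    have n2 : G s ∉ F '' B := fun h => by
      have := labFB _ h; rw [a2] at this; exact absurd this (by decide)
    have n3 : F' s ∉ F '' B := fun h => by
      have := labFB _ h; rw [a3] at this; exact absurd this (by decide)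
    have n4 : G' s ∉ F '' B := fun h => by
      have := labFB _ h; rw [a4] at this; exact absurd this (by decide)
    have n5 : s ∉ G '' B := fun h => by
      have := labGB _ h; rw [a0] at this; exact absurd this (by decide)
    have n6 : F s ∉ G '' B := fun h => by
      have := labGB _ h; rw [a1] at this; exact absurd this (by decide)
    have n7 : F' s ∉ G '' B := fun h => by
      have := labGB _ h; rw [a3] at this; exact absurd this (by decide)
    have n8 : G' s ∉ G '' B := fun h => by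
      have := labGB _ h; rw [a4] at this; exact absurd this (by decide)
    have n9 : F s ∉ B := fun h => by
      have := labB _ h; rw [a1] at this; exact absurd this (by decide)
    have n10 : G s ∉ B := fun h => by
      have := labB _ h; rw [a2] at this; exact absurd this (by decide)
    have n11 : F' s ∉ B := fun h => by
      have := labB _ h; rw [a3] at this; exact absurd this (by decide)
    have n12 : G' s ∉ B := fun h => by
      have := labB _ h; rw [a4] at this; exact absurd this (by decide)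
    have p1 : F s ∈ F '' S := ⟨s, hs, rfl⟩
    have q1 : s ∉ F '' S := fun h => by
      have := labFS _ h; rw [a0] at this; exact absurd this (by decide)
    have q2 : G s ∉ F '' S := fun h => by
      have := labFS _ h; rw [a2] at this; exact absurd this (by decide)
    have q3 : F' s ∉ F '' S := fun h => by
      have := labFS _ h; rw [a3] at this; exact absurd this (by decide)
    have q4 : G' s ∉ F '' S := fun h => by
      have := labFS _ h; rw [a4] at this; exact absurd this (by decide)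
    have e1 := eF s hs
    have e2 := eG s hs
    simp only [indicator, mem_inter_iff, mem_ofPred_eq, Pi.one_apply]
    by_cases hsB : s ∈ B
    · have e1' := e1.mpr hsB
      have e2' := e2.mpr hsB
      rcases hx with h | h
      · rcases h with ⟨h1, h2, h3⟩ | ⟨h1, h2, h3⟩ | ⟨h1, h2, h3⟩ | ⟨h1, h2, h3⟩ | ⟨h1, h2, h3⟩ |
          ⟨h1, h2, h3⟩ <;> rw [h2, h3, h1] <;>
        simp only [n1, n2, n5, n6, n9, n10, p1, q1, q2, e1', e2', hsB, if_true, if_false, and_self, or_self,
          or_true, true_or, false_and, and_false, and_true, or_false, false_or, add_zero, zero_add]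
      · rcases h with ⟨h1, h2, h3⟩ | ⟨h1, h2, h3⟩ | ⟨h1, h2, h3⟩ | ⟨h1, h2, h3⟩ | ⟨h1, h2, h3⟩ |
          ⟨h1, h2, h3⟩ <;> rw [h2, h3, h1] <;>
        simp only [n1, n3, n4, n5, n7, n8, n11, n12, q1, q3, q4, hsB, if_true, if_false, and_self, or_self,
          or_true, true_or, false_and, and_false, and_true, or_false, false_or, add_zero, zero_add]
    · have e1' : F s ∉ F '' B := fun h => hsB (e1.mp h)
      have e2' : G s ∉ G '' B := fun h => hsB (e2.mp h)
      rcases hx with h | h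
      · rcases h with ⟨h1, h2, h3⟩ | ⟨h1, h2, h3⟩ | ⟨h1, h2, h3⟩ | ⟨h1, h2, h3⟩ | ⟨h1, h2, h3⟩ |
          ⟨h1, h2, h3⟩ <;> rw [h2, h3, h1] <;>
        simp only [n1, n2, n5, n6, n9, n10, p1, q1, q2, e1', e2', hsB, if_true, if_false, and_self, or_self,
          or_true, true_or, false_and, and_false, and_true, or_false, false_or, add_zero, zero_add]
      · rcases h with ⟨h1, h2, h3⟩ | ⟨h1, h2, h3⟩ | ⟨h1, h2, h3⟩ | ⟨h1, h2, h3⟩ | ⟨h1, h2, h3⟩ |
          ⟨h1, h2, h3⟩ <;> rw [h2, h3, h1] <;>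
        simp only [n1, n3, n4, n5, n7, n8, n11, n12, q1, q3, q4, hsB, if_true, if_false, and_self, or_self,
          or_true, true_or, false_and, and_false, and_true, or_false, false_or, add_zero, zero_add]
  have hint := lintegral_congr_ae key
  have m1 : Measurable ((F '' B).indicator (1 : E → ℝ≥0∞)) := measurable_one.indicator mFB
  have m2 : Measurable ((G '' B).indicator (1 : E → ℝ≥0∞)) := measurable_one.indicator mGB
  have m3 : Measurable ((B ∩ {x | T₂ x ∈ F '' S ∨ T₃ x ∈ F '' S}).indicator (1 : E → ℝ≥0∞)) :=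
    measurable_one.indicator (hB.inter mA)
  have i0 : ∫⁻ x, (F '' B).indicator (1 : E → ℝ≥0∞) x ∂μ = ν B := by
    rw [lintegral_indicator_one mFB, hμFB]
  have i2 : ∫⁻ x, (F '' B).indicator (1 : E → ℝ≥0∞) (T₂ x) ∂μ = ν B := by
    rw [← lintegral_map m1 hT₂, mT₂, i0]
  have i3 : ∫⁻ x, (F '' B).indicator (1 : E → ℝ≥0∞) (T₃ x) ∂μ = ν B := by
    rw [← lintegral_map m1 hT₃, mT₃, i0]
  have i4 : ∫⁻ x, (G '' B).indicator (1 : E → ℝ≥0∞) x ∂μ = ν B := by
    rw [lintegral_indicator_one mGB, hμGB]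
  have m1T₂ : Measurable (fun x => (F '' B).indicator (1 : E → ℝ≥0∞) (T₂ x)) := m1.comp hT₂
  have m1T₃ : Measurable (fun x => (F '' B).indicator (1 : E → ℝ≥0∞) (T₃ x)) := m1.comp hT₃
  rw [lintegral_add_right _ m1T₃, lintegral_add_right _ m1T₂,
    lintegral_add_right _ m2, lintegral_add_right _ m1, i0, i2, i3, i4,
    lintegral_indicator_one (hB.inter mA)] at hint
  have hBfin : ν B ≠ ∞ := ne_top_of_le_ne_top hfin (measure_mono (subset_univ B))
  have : ν B + (ν B + ν B) = μ (B ∩ {x | T₂ x ∈ F '' S ∨ T₃ x ∈ F '' S}) + (ν B + ν B) := by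
    rw [← add_assoc, hint, add_assoc]
  exact ((ENNReal.add_left_inj (by simp [hBfin])).mp this).symm

theorem no_both {E : Type*} (lab : E → Fin 5) {s a b a' b' x y z : E} (a0 : lab s = 0)
    (a1 : lab a = 1) (a2 : lab b = 2) (a3 : lab a' = 3) (a4 : lab b' = 4) (b0 : lab x = 0)
    (hA : lab y = 1 ∨ lab z = 1) (hA' : lab y = 3 ∨ lab z = 3)
    (h : Perm3 s a b x y z ∨ Perm3 s a' b' x y z) : False := by
  rcases h with h | h <;>
  rcases h with ⟨rfl, rfl, rfl⟩ | ⟨rfl, rfl, rfl⟩ | ⟨rfl, rfl, rfl⟩ | ⟨rfl, rfl, rfl⟩ |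
    ⟨rfl, rfl, rfl⟩ | ⟨rfl, rfl, rfl⟩ <;>
  simp only [a0, a1, a2, a3, a4] at b0 hA hA' <;> revert b0 hA hA' <;> decide

/-- A Monge plan cannot reach the value `3 ∫ u dμ`. -/
theorem monge_false
    (c : E × E × E → ℝ≥0∞) (hc : Measurable c)
    (ν : Measure E) (S : Set E) (hS : MeasurableSet S)
    (hνS : ν Sᶜ = 0) (hfin : ν univ ≠ ∞) (hpos : ν univ ≠ 0)
    (F G F' G' : E → E) (hF : Measurable F) (hG : Measurable G)
    (hF' : Measurable F') (hG' : Measurable G')
    (iF : InjOn F S) (iG : InjOn G S) (iF' : InjOn F' S) (iG' : InjOn G' S)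
    (lab : E → Fin 5)
    (l0 : ∀ s ∈ S, lab s = 0) (l1 : ∀ s ∈ S, lab (F s) = 1) (l2 : ∀ s ∈ S, lab (G s) = 2)
    (l3 : ∀ s ∈ S, lab (F' s) = 3) (l4 : ∀ s ∈ S, lab (G' s) = 4)
    (μ : Measure E)
    (hμ : μ = ν + ν + ν.map F + ν.map G + ν.map F' + ν.map G')
    (u : E → ℝ≥0∞) (hu : Measurable u) (hufin : ∫⁻ x, u x ∂μ ≠ ∞)
    (K : Set E) (hK : μ Kᶜ = 0) (mK : MeasurableSet K)
    (hle : ∀ x ∈ K, ∀ y ∈ K, ∀ z ∈ K, u x + u y + u z ≤ c (x, y, z))
    (heq : ∀ x ∈ K, ∀ y ∈ K, ∀ z ∈ K, u x + u y + u z = c (x, y, z) →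
      ∃ s ∈ S, Perm3 s (F s) (G s) x y z ∨ Perm3 s (F' s) (G' s) x y z)
    (T₂ T₃ : E → E) (hT₂ : Measurable T₂) (hT₃ : Measurable T₃)
    (mT₂ : μ.map T₂ = μ) (mT₃ : μ.map T₃ = μ)
    (hcost : ∫⁻ x, c (x, T₂ x, T₃ x) ∂μ ≤ 3 * ∫⁻ x, u x ∂μ) : False := by
  have hu2 : ∫⁻ x, u (T₂ x) ∂μ = ∫⁻ x, u x ∂μ := by
    rw [← lintegral_map hu hT₂, mT₂]
  have hu3 : ∫⁻ x, u (T₃ x) ∂μ = ∫⁻ x, u x ∂μ := by
    rw [← lintegral_map hu hT₃, mT₃]
  have muT₂ : Measurable (fun x => u (T₂ x)) := hu.comp hT₂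
  have muT₃ : Measurable (fun x => u (T₃ x)) := hu.comp hT₃
  have hsum : ∫⁻ x, (u x + u (T₂ x) + u (T₃ x)) ∂μ = 3 * ∫⁻ x, u x ∂μ := by
    rw [lintegral_add_right _ muT₃, lintegral_add_right _ muT₂, hu2, hu3]
    ring
  have k1 : ∀ᵐ x ∂μ, x ∈ K := by rwa [← mem_ae_iff] at hK
  have k2 : ∀ᵐ x ∂μ, T₂ x ∈ K := by
    have : μ (T₂ ⁻¹' Kᶜ) = 0 := by
      rw [← Measure.map_apply hT₂ mK.compl, mT₂, hK]
    rwa [preimage_compl, ← mem_ae_iff] at this
  have k3 : ∀ᵐ x ∂μ, T₃ x ∈ K := by
    have : μ (T₃ ⁻¹' Kᶜ) = 0 := by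
      rw [← Measure.map_apply hT₃ mK.compl, mT₃, hK]
    rwa [preimage_compl, ← mem_ae_iff] at this
  have hle' : (fun x => u x + u (T₂ x) + u (T₃ x)) ≤ᵐ[μ] (fun x => c (x, T₂ x, T₃ x)) := by
    filter_upwards [k1, k2, k3] with x h1 h2 h3
    exact hle x h1 _ h2 _ h3
  have mcT : Measurable (fun x => c (x, T₂ x, T₃ x)) :=
    hc.comp (measurable_id.prodMk (hT₂.prodMk hT₃))
  have hae : (fun x => u x + u (T₂ x) + u (T₃ x)) =ᵐ[μ] (fun x => c (x, T₂ x, T₃ x)) := by
    refine ae_eq_of_ae_le_of_lintegral_le hle' ?_ mcT.aemeasurable ?_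
    · rw [hsum]
      exact ENNReal.mul_ne_top (by simp) hufin
    · rw [hsum]; exact hcost
  have hperm : ∀ᵐ x ∂μ, ∃ s ∈ S, Perm3 s (F s) (G s) x (T₂ x) (T₃ x) ∨
      Perm3 s (F' s) (G' s) x (T₂ x) (T₃ x) := by
    filter_upwards [k1, k2, k3, hae] with x h1 h2 h3 h4
    exact heq x h1 _ h2 _ h3 h4
  have hperm' : ∀ᵐ x ∂μ, ∃ s ∈ S, Perm3 s (F' s) (G' s) x (T₂ x) (T₃ x) ∨
      Perm3 s (F s) (G s) x (T₂ x) (T₃ x) := by
    filter_upwards [hperm] with x hx
    obtain ⟨s, hs, h⟩ := hx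
    exact ⟨s, hs, h.symm⟩
  -- apply the counting lemma to both graphs
  have c1 := count_aux ν S hS hνS hfin F G F' G' hF hG hF' hG' iF iG lab l0 l1 l2 l3 l4 μ hμ
    T₂ T₃ hT₂ hT₃ mT₂ mT₃ hperm
  have hμ' : μ = ν + ν + ν.map F' + ν.map G' + ν.map F + ν.map G := by
    rw [hμ]; abel
  let e : Fin 5 → Fin 5 := ![0, 3, 4, 1, 2]
  have c2 := count_aux ν S hS hνS hfin F' G' F G hF' hG' hF hG iF' iG' (fun x => e (lab x))
    (fun s hs => by simp [l0 s hs, e]) (fun s hs => by simp [l3 s hs, e])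
    (fun s hs => by simp [l4 s hs, e]) (fun s hs => by simp [l1 s hs, e])
    (fun s hs => by simp [l2 s hs, e]) μ hμ' T₂ T₃ hT₂ hT₃ mT₂ mT₃ hperm'
  have mFS : MeasurableSet (F '' S) := hS.image_of_measurable_injOn hF iF
  have mFS' : MeasurableSet (F' '' S) := hS.image_of_measurable_injOn hF' iF'
  set A : Set E := {x | T₂ x ∈ F '' S ∨ T₃ x ∈ F '' S} with hA
  set A' : Set E := {x | T₂ x ∈ F' '' S ∨ T₃ x ∈ F' '' S} with hA'
  have mA : MeasurableSet A := (hT₂ mFS).union (hT₃ mFS)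
  have mA' : MeasurableSet A' := (hT₂ mFS').union (hT₃ mFS')
  have h1 := c1 (S \ A) (hS.diff mA) sdiff_subset
  have h2 : (S \ A) ∩ A = ∅ := by
    ext x; simp only [mem_inter_iff, mem_sdiff, mem_empty_iff_false, iff_false]; tauto
  rw [h2, measure_empty] at h1
  have h3 := c2 (S ∩ A) (hS.inter mA) inter_subset_left
  have h4 : μ (S ∩ A ∩ A') = 0 := by
    have : ∀ᵐ x ∂μ, x ∉ S ∩ A ∩ A' := by
      filter_upwards [hperm] with x hx
      obtain ⟨s, hs, hx⟩ := hx
      rintro ⟨⟨hxS, hxA⟩, hxA'⟩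
      have a0 := l0 s hs
      have a1 := l1 s hs
      have a2 := l2 s hs
      have a3 := l3 s hs
      have a4 := l4 s hs
      have b0 := l0 x hxS
      have hxA1 : lab (T₂ x) = 1 ∨ lab (T₃ x) = 1 := by
        rcases hxA with ⟨t, ht, h⟩ | ⟨t, ht, h⟩
        · left; rw [← h]; exact l1 t ht
        · right; rw [← h]; exact l1 t ht
      have hxA2 : lab (T₂ x) = 3 ∨ lab (T₃ x) = 3 := by
        rcases hxA' with ⟨t, ht, h⟩ | ⟨t, ht, h⟩
        · left; rw [← h]; exact l3 t ht
        · right; rw [← h]; exact l3 t ht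
      exact no_both lab a0 a1 a2 a3 a4 b0 hxA1 hxA2 hx
    exact measure_eq_zero_iff_ae_notMem.mpr this
  rw [h4] at h3
  have h5 : ν univ ≤ ν (S \ A) + ν (S ∩ A) + ν Sᶜ := by
    calc ν univ ≤ ν ((S \ A) ∪ (S ∩ A) ∪ Sᶜ) := by
          apply measure_mono
          intro x _
          by_cases hx : x ∈ S <;> by_cases hxA : x ∈ A <;> simp [hx, hxA]
      _ ≤ ν ((S \ A) ∪ (S ∩ A)) + ν Sᶜ := measure_union_le _ _
      _ ≤ ν (S \ A) + ν (S ∩ A) + ν Sᶜ := by gcongr; exact measure_union_le _ _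
  rw [← h1, ← h3, hνS] at h5
  simp at h5
  exact hpos (by simp [h5])

omit [StandardBorelSpace E] in
/-- The explicit plan and its cost. -/
theorem exists_plan
    (c : E × E × E → ℝ≥0∞) (hc : Measurable c) (hsym : ∀ x y z, c (y, z, x) = c (x, y, z))
    (ν : Measure E) (S : Set E) (hνS : ν Sᶜ = 0) (hν : 6 * ν univ = 1)
    (F G F' G' : E → E) (hF : Measurable F) (hG : Measurable G)
    (hF' : Measurable F') (hG' : Measurable G')
    (μ : Measure E)
    (hμ : μ = ν + ν + ν.map F + ν.map G + ν.map F' + ν.map G')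
    (u : E → ℝ≥0∞) (hu : Measurable u)
    (h1 : ∀ s ∈ S, c (s, F s, G s) = u s + u (F s) + u (G s))
    (h2 : ∀ s ∈ S, c (s, F' s, G' s) = u s + u (F' s) + u (G' s)) :
    ∃ π : Measure (E × E × E), IsProbabilityMeasure π ∧ π.map (fun p => p.1) = μ ∧
      π.map (fun p => p.2.1) = μ ∧ π.map (fun p => p.2.2) = μ ∧
      ∫⁻ p, c p ∂π = 3 * ∫⁻ x, u x ∂μ := by
  have g1 : Measurable (fun s => (s, F s, G s)) := measurable_id.prodMk (hF.prodMk hG)
  have g2 : Measurable (fun s => (F s, G s, s)) := hF.prodMk (hG.prodMk measurable_id)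
  have g3 : Measurable (fun s => (G s, s, F s)) := hG.prodMk (measurable_id.prodMk hF)
  have g4 : Measurable (fun s => (s, F' s, G' s)) := measurable_id.prodMk (hF'.prodMk hG')
  have g5 : Measurable (fun s => (F' s, G' s, s)) := hF'.prodMk (hG'.prodMk measurable_id)
  have g6 : Measurable (fun s => (G' s, s, F' s)) := hG'.prodMk (measurable_id.prodMk hF')
  refine ⟨ν.map (fun s => (s, F s, G s)) + ν.map (fun s => (F s, G s, s))
    + ν.map (fun s => (G s, s, F s)) + ν.map (fun s => (s, F' s, G' s))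
    + ν.map (fun s => (F' s, G' s, s)) + ν.map (fun s => (G' s, s, F' s)), ⟨?_⟩, ?_, ?_, ?_, ?_⟩
  · simp only [Measure.add_apply]
    rw [Measure.map_apply g1 MeasurableSet.univ, Measure.map_apply g2 MeasurableSet.univ,
      Measure.map_apply g3 MeasurableSet.univ, Measure.map_apply g4 MeasurableSet.univ,
      Measure.map_apply g5 MeasurableSet.univ, Measure.map_apply g6 MeasurableSet.univ]
    simp only [preimage_univ]
    rw [← hν]; ring
  · have mf : Measurable (fun p : E × E × E => p.1) := measurable_fst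
    simp only [Measure.map_add _ _ mf, Measure.map_map mf g1, Measure.map_map mf g2,
      Measure.map_map mf g3, Measure.map_map mf g4, Measure.map_map mf g5, Measure.map_map mf g6]
    simp only [Function.comp_def]
    have : ν.map (fun s => s) = ν := Measure.map_id
    rw [this, hμ]; abel
  · have mf : Measurable (fun p : E × E × E => p.2.1) := measurable_fst.comp measurable_snd
    simp only [Measure.map_add _ _ mf, Measure.map_map mf g1, Measure.map_map mf g2,
      Measure.map_map mf g3, Measure.map_map mf g4, Measure.map_map mf g5, Measure.map_map mf g6]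
    simp only [Function.comp_def]
    have : ν.map (fun s => s) = ν := Measure.map_id
    rw [this, hμ]; abel
  · have mf : Measurable (fun p : E × E × E => p.2.2) := measurable_snd.comp measurable_snd
    simp only [Measure.map_add _ _ mf, Measure.map_map mf g1, Measure.map_map mf g2,
      Measure.map_map mf g3, Measure.map_map mf g4, Measure.map_map mf g5, Measure.map_map mf g6]
    simp only [Function.comp_def]
    have : ν.map (fun s => s) = ν := Measure.map_id
    rw [this, hμ]; abel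
  · have k1 : ∀ᵐ x ∂ν, x ∈ S := by rwa [← mem_ae_iff] at hνS
    have muF : Measurable (fun s => u (F s)) := hu.comp hF
    have muG : Measurable (fun s => u (G s)) := hu.comp hG
    have muF' : Measurable (fun s => u (F' s)) := hu.comp hF'
    have muG' : Measurable (fun s => u (G' s)) := hu.comp hG'
    have e1 : ∫⁻ s, c (s, F s, G s) ∂ν
        = ∫⁻ s, u s ∂ν + ∫⁻ s, u (F s) ∂ν + ∫⁻ s, u (G s) ∂ν := by
      rw [← lintegral_add_right _ muF, ← lintegral_add_right _ muG]
      apply lintegral_congr_ae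
      filter_upwards [k1] with s hs using h1 s hs
    have e2 : ∫⁻ s, c (F s, G s, s) ∂ν = ∫⁻ s, c (s, F s, G s) ∂ν := by
      simp_rw [hsym]
    have e3 : ∫⁻ s, c (G s, s, F s) ∂ν = ∫⁻ s, c (s, F s, G s) ∂ν := by
      simp_rw [hsym]
    have e4 : ∫⁻ s, c (s, F' s, G' s) ∂ν
        = ∫⁻ s, u s ∂ν + ∫⁻ s, u (F' s) ∂ν + ∫⁻ s, u (G' s) ∂ν := by
      rw [← lintegral_add_right _ muF', ← lintegral_add_right _ muG']
      apply lintegral_congr_ae
      filter_upwards [k1] with s hs using h2 s hs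
    have e5 : ∫⁻ s, c (F' s, G' s, s) ∂ν = ∫⁻ s, c (s, F' s, G' s) ∂ν := by
      simp_rw [hsym]
    have e6 : ∫⁻ s, c (G' s, s, F' s) ∂ν = ∫⁻ s, c (s, F' s, G' s) ∂ν := by
      simp_rw [hsym]
    rw [lintegral_add_measure, lintegral_add_measure, lintegral_add_measure,
      lintegral_add_measure, lintegral_add_measure, lintegral_map hc g1, lintegral_map hc g2,
      lintegral_map hc g3, lintegral_map hc g4, lintegral_map hc g5, lintegral_map hc g6,
      e2, e3, e5, e6, e1, e4, hμ, lintegral_add_measure, lintegral_add_measure,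
      lintegral_add_measure, lintegral_add_measure, lintegral_add_measure,
      lintegral_map hu hF, lintegral_map hu hG, lintegral_map hu hF', lintegral_map hu hG']
    ring

end Vale.Agent.P121
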