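import Mathlib

/-!
Antilipschitz maps on a subset pull back null sets to null sets.
-/

open Set Metric Filter Topology MeasureTheory
open scoped NNReal ENNReal

namespace Vale.Agent.P121

theorem null_preimage {E : Type*} [NormedAddCommGroup E] [InnerProductSpace ℝ E]
    [FiniteDimensional ℝ E] [MeasurableSpace E] [BorelSpace E] {f : E → E} {S : Set E} {C : ℝ≥0}
    (h : ∀ x ∈ S, ∀ y ∈ S, ‖x - y‖ ≤ C * ‖f x - f y‖) {N : Set E} (hN : volume N = 0) :
    volume (f ⁻¹' N ∩ S) = 0 := by
  have hHaar := isAddHaarMeasure_hausdorffMeasure (E := E)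
  have ac1 : (volume : Measure E) ≪ Measure.hausdorffMeasure (Module.finrank ℝ E : ℝ) :=
    Measure.absolutelyContinuous_isAddHaarMeasure _ _
  have ac2 : Measure.hausdorffMeasure (Module.finrank ℝ E : ℝ) ≪ (volume : Measure E) :=
    Measure.absolutelyContinuous_isAddHaarMeasure _ _
  have hd : (0 : ℝ) ≤ (Module.finrank ℝ E : ℝ) := by positivity
  have hanti : AntilipschitzWith C (fun x : S => f x) := by
    refine AntilipschitzWith.of_le_mul_dist fun x y => ?_
    rw [Subtype.dist_eq, dist_eq_norm, dist_eq_norm]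
    exact h x x.2 y y.2
  have h1 := hanti.hausdorffMeasure_preimage_le hd N
  rw [ac2 hN, mul_zero] at h1
  have h2 : f ⁻¹' N ∩ S = Subtype.val '' ((fun x : S => f x) ⁻¹' N) := by
    ext x
    simp only [mem_inter_iff, mem_preimage, mem_image, Subtype.exists, exists_and_left,
      exists_prop, exists_eq_right_right]
  apply ac1
  rw [h2, isometry_subtype_coe.hausdorffMeasure_image (Or.inl hd)]
  exact nonpos_iff_eq_zero.mp h1

end Vale.Agent.P121
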