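import Vale.Agent.P121.Skeleton
import Vale.Agent.P121.Null
import Vale.Agent.P121.Abstract

/-!
The potentials on the five clusters and the contact set.
-/

open Set Metric Filter Topology MeasureTheory
open scoped RealInnerProductSpace

namespace Vale.Agent.P121

variable {n : ℕ}

theorem cR_swap12 {E : Type*} [NormedAddCommGroup E] [InnerProductSpace ℝ E] (p q r : E) :
    cR q p r = cR p q r := by
  unfold cR; rw [norm_sub_rev q p]; ring

theorem cR_swap23 {E : Type*} [NormedAddCommGroup E] [InnerProductSpace ℝ E] (p q r : E) :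
    cR p r q = cR p q r := by
  unfold cR; rw [norm_sub_rev r q]; ring

theorem cR_sg (p q r : Sp (n + 2)) : cR (sg n p) (sg n q) (sg n r) = cR p q r := by
  unfold cR
  rw [← map_sub, ← map_sub, ← map_sub, LinearIsometryEquiv.norm_map, LinearIsometryEquiv.norm_map,
    LinearIsometryEquiv.norm_map]

theorem Perm3.swap12 {E : Type*} {a b c x y z : E} (h : Perm3 a b c x y z) :
    Perm3 a b c y x z := by
  unfold Perm3 at *; tauto

theorem Perm3.swap23 {E : Type*} {a b c x y z : E} (h : Perm3 a b c x y z) :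
    Perm3 a b c x z y := by
  unfold Perm3 at *; tauto

namespace LocalData

variable (D : LocalData n)

/-- the inner ball -/
def S : Set (Sp (n + 2)) := ball 0 D.ρ

/-- reflected maps -/
noncomputable def F' (x : Sp (n + 2)) : Sp (n + 2) := sg n (D.F (sg n x))
noncomputable def G' (x : Sp (n + 2)) : Sp (n + 2) := sg n (D.G (sg n x))

theorem mS : MeasurableSet D.S := measurableSet_ball

theorem sg_mem {x : Sp (n + 2)} (hx : x ∈ D.S) : sg n x ∈ D.S := by
  unfold S at *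
  rw [mem_ball_zero_iff] at *
  rwa [LinearIsometryEquiv.norm_map]

theorem mF' : Measurable D.F' :=
  (sg n).continuous.measurable.comp (D.mF.comp (sg n).continuous.measurable)

theorem mG' : Measurable D.G' :=
  (sg n).continuous.measurable.comp (D.mG.comp (sg n).continuous.measurable)

theorem iF : InjOn D.F D.S := fun x hx y hy h => by
  have := D.lF x hx y hy
  rw [h, sub_self, norm_zero, mul_zero] at this
  exact sub_eq_zero.mp (norm_le_zero_iff.mp this)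

theorem iG : InjOn D.G D.S := fun x hx y hy h => by
  have := D.lG x hx y hy
  rw [h, sub_self, norm_zero, mul_zero] at this
  exact sub_eq_zero.mp (norm_le_zero_iff.mp this)

theorem iF' : InjOn D.F' D.S := fun x hx y hy h => by
  have h1 := (sg n).injective h
  have h2 := D.iF (D.sg_mem hx) (D.sg_mem hy) h1
  exact (sg n).injective h2

theorem iG' : InjOn D.G' D.S := fun x hx y hy h => by
  have h1 := (sg n).injective h
  have h2 := D.iG (D.sg_mem hx) (D.sg_mem hy) h1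
  exact (sg n).injective h2

theorem lF' : ∀ x ∈ D.S, ∀ y ∈ D.S, ‖x - y‖ ≤ D.C * ‖D.F' x - D.F' y‖ := fun x hx y hy => by
  have := D.lF _ (D.sg_mem hx) _ (D.sg_mem hy)
  rw [← map_sub, LinearIsometryEquiv.norm_map] at this
  unfold F'
  rwa [← map_sub, LinearIsometryEquiv.norm_map]

theorem lG' : ∀ x ∈ D.S, ∀ y ∈ D.S, ‖x - y‖ ≤ D.C * ‖D.G' x - D.G' y‖ := fun x hx y hy => by
  have := D.lG _ (D.sg_mem hx) _ (D.sg_mem hy)
  rw [← map_sub, LinearIsometryEquiv.norm_map] at this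
  unfold G'
  rwa [← map_sub, LinearIsometryEquiv.norm_map]

/-- the potential at `F x`, as a function of `x` -/
noncomputable def vY (x : Sp (n + 2)) : ℝ :=
  cR x (D.F x) (D.G x) - uS x - uZ (e0 n) (D.G x)

theorem measurable_uS : Measurable (uS : Sp (n + 2) → ℝ) := by
  unfold uS; fun_prop

theorem measurable_uZ : Measurable (uZ (e0 n)) := by
  unfold uZ; fun_prop

theorem measurable_vY : Measurable D.vY := by
  have h1 := D.mF
  have h2 := D.mG
  unfold vY cR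
  refine Measurable.sub (Measurable.sub ?_ measurable_uS) (measurable_uZ.comp h2)
  exact (((measurable_id.sub h1).norm.inv).add ((measurable_id.sub h2).norm.inv)).add
    ((h1.sub h2).norm.inv)

theorem exists_UY : ∃ UY : Sp (n + 2) → ℝ, Measurable UY ∧ ∀ x ∈ D.S, UY (D.F x) = D.vY x := by
  have : StandardBorelSpace D.S := D.mS.standardBorel
  have hf : MeasurableEmbedding (fun x : D.S => D.F x) :=
    (D.mF.comp measurable_subtype_coe).measurableEmbedding fun x y h =>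
      Subtype.ext (D.iF x.2 y.2 h)
  obtain ⟨g', hg', hc⟩ := hf.exists_measurable_extend
    (g := fun x : D.S => D.vY x) (D.measurable_vY.comp measurable_subtype_coe) (fun _ => ⟨0⟩)
  exact ⟨g', hg', fun x hx => congrFun hc ⟨x, hx⟩⟩

/-- the potential at the points of the second cluster -/
noncomputable def UY : Sp (n + 2) → ℝ := D.exists_UY.choose

theorem measurable_UY : Measurable D.UY := D.exists_UY.choose_spec.1

theorem UY_F {x : Sp (n + 2)} (hx : x ∈ D.S) : D.UY (D.F x) = D.vY x :=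
  D.exists_UY.choose_spec.2 x hx

open Classical in
/-- label of a point -/
noncomputable def lab (p : Sp (n + 2)) : Fin 5 :=
  if ‖p‖ < 1 / 4 then 0 else if ‖p - e0 n‖ < 1 / 4 then 1 else
    if ‖p + e0 n‖ < 1 / 4 then 2 else if ‖p - e1 n‖ < 1 / 4 then 3 else 4

open Classical in
/-- the potential -/
noncomputable def U (p : Sp (n + 2)) : ℝ :=
  if ‖p‖ < 1 / 4 then uS p else if ‖p - e0 n‖ < 1 / 4 then D.UY p else
    if ‖p + e0 n‖ < 1 / 4 then uZ (e0 n) p else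
      if ‖p - e1 n‖ < 1 / 4 then D.UY (sg n p) else uZ (e0 n) (sg n p)

theorem measurable_U : Measurable D.U := by
  have c : Continuous (sg n) := (sg n).continuous
  unfold U
  refine Measurable.ite ?_ measurable_uS (Measurable.ite ?_ D.measurable_UY
    (Measurable.ite ?_ measurable_uZ (Measurable.ite ?_ (D.measurable_UY.comp c.measurable)
      (measurable_uZ.comp c.measurable))))
  · exact measurableSet_lt (by fun_prop) (by fun_prop)
  · exact measurableSet_lt (by fun_prop) (by fun_prop)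
  · exact measurableSet_lt (by fun_prop) (by fun_prop)
  · exact measurableSet_lt (by fun_prop) (by fun_prop)

/-- the five clusters -/
def Kset : Fin 5 → Set (Sp (n + 2)) := ![D.S, D.F '' D.S, D.G '' D.S, D.F' '' D.S, D.G' '' D.S]

theorem near {i : Fin 5} {p : Sp (n + 2)} (hp : p ∈ D.Kset i) : ‖p - posn n i‖ < 1 / 200 := by
  fin_cases i
  · have h : p ∈ ball (0 : Sp (n + 2)) D.ρ := hp
    rw [mem_ball_zero_iff] at h
    have := D.ρ_le
    simp only [posn]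
    simp
    linarith
  · obtain ⟨s, hs, rfl⟩ : p ∈ D.F '' D.S := hp
    exact D.hF s hs
  · obtain ⟨s, hs, rfl⟩ : p ∈ D.G '' D.S := hp
    have := D.hG s hs
    show ‖D.G s - -e0 n‖ < 1 / 200
    rwa [sub_neg_eq_add]
  · obtain ⟨s, hs, rfl⟩ : p ∈ D.F' '' D.S := hp
    have := D.hF _ (D.sg_mem hs)
    show ‖sg n (D.F (sg n s)) - e1 n‖ < 1 / 200
    rwa [← sg_e0, ← map_sub, LinearIsometryEquiv.norm_map]
  · obtain ⟨s, hs, rfl⟩ : p ∈ D.G' '' D.S := hp
    have := D.hG _ (D.sg_mem hs)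
    show ‖sg n (D.G (sg n s)) - -e1 n‖ < 1 / 200
    rwa [← sg_e0, sub_neg_eq_add, ← map_add, LinearIsometryEquiv.norm_map]

end LocalData

theorem norm_pos_gt {i j : Fin 5} (hij : i ≠ j) : 1 ≤ ‖posn n i - posn n j‖ := by
  have g1 : 1 ≤ ‖e0 n - e1 n‖ := by
    have := norm_sq_e0_sub_e1 (n := n)
    nlinarith [norm_nonneg (e0 n - e1 n)]
  have g2 : 1 ≤ ‖e0 n + e1 n‖ := by
    have := norm_sq_e0_add_e1 (n := n)
    nlinarith [norm_nonneg (e0 n + e1 n)]
  have b1 : 1 ≤ ‖e1 n - e0 n‖ := by rwa [norm_sub_rev]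
  have b2 : 1 ≤ ‖e1 n + e0 n‖ := by rwa [add_comm (e1 n)]
  have c1 : 1 ≤ ‖-e0 n - e1 n‖ := by
    rw [show -e0 n - e1 n = -(e0 n + e1 n) by abel, norm_neg]; exact g2
  have c2 : 1 ≤ ‖-e1 n - e0 n‖ := by
    rw [show -e1 n - e0 n = -(e0 n + e1 n) by abel, norm_neg]; exact g2
  have c3 : 1 ≤ ‖-e0 n + e1 n‖ := by
    rw [show -e0 n + e1 n = -(e0 n - e1 n) by abel, norm_neg]; exact g1
  have c4 : 1 ≤ ‖-e1 n + e0 n‖ := by
    rw [show -e1 n + e0 n = e0 n - e1 n by abel]; exact g1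
  have d1 : ‖e0 n + e0 n‖ = 2 := by rw [← two_smul ℝ, norm_smul, norm_e0]; norm_num
  have d2 : ‖e1 n + e1 n‖ = 2 := by rw [← two_smul ℝ, norm_smul, norm_e1]; norm_num
  have d3 : ‖-e0 n - e0 n‖ = 2 := by
    rw [show -e0 n - e0 n = -(e0 n + e0 n) by abel, norm_neg]; exact d1
  have d4 : ‖-e1 n - e1 n‖ = 2 := by
    rw [show -e1 n - e1 n = -(e1 n + e1 n) by abel, norm_neg]; exact d2
  have f0 := norm_e0 (n := n)
  have f1 := norm_e1 (n := n)
  fin_cases i <;> fin_cases j <;> first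
    | exact absurd rfl hij
    | simp [posn, g1, g2, b1, b2, c1, c2, c3, c4, d1, d2, d3, d4, f0, f1]

theorem not_near {i j : Fin 5} (hij : i ≠ j) {p : Sp (n + 2)} (hp : ‖p - posn n i‖ < 1 / 200) :
    ¬ ‖p - posn n j‖ < 1 / 4 := by
  intro h
  have h1 : ‖posn n i - posn n j‖ ≤ ‖p - posn n j‖ + ‖p - posn n i‖ := by
    calc ‖posn n i - posn n j‖ = ‖(p - posn n j) - (p - posn n i)‖ := by congr 1; abel
      _ ≤ _ := norm_sub_le _ _
  have h2 := norm_pos_gt (n := n) hij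
  linarith

namespace LocalData

variable (D : LocalData n)

theorem lab_eq {i : Fin 5} {p : Sp (n + 2)} (hp : ‖p - posn n i‖ < 1 / 200) : lab p = i := by
  have h' : ‖p - posn n i‖ < 1 / 4 := by linarith
  have n0 : i ≠ 0 → ¬ ‖p‖ < 1 / 4 := fun h => by
    simpa [posn] using not_near (j := 0) h hp
  have n1 : i ≠ 1 → ¬ ‖p - e0 n‖ < 1 / 4 := fun h => by
    simpa [posn] using not_near (j := 1) h hp
  have n2 : i ≠ 2 → ¬ ‖p + e0 n‖ < 1 / 4 := fun h => by
    simpa [posn] using not_near (j := 2) h hp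
  have n3 : i ≠ 3 → ¬ ‖p - e1 n‖ < 1 / 4 := fun h => by
    simpa [posn] using not_near (j := 3) h hp
  unfold lab
  fin_cases i
  · rw [if_pos (by simpa [posn] using h')]; rfl
  · rw [if_neg (n0 (by decide)), if_pos (by simpa [posn] using h')]; rfl
  · rw [if_neg (n0 (by decide)), if_neg (n1 (by decide)), if_pos (by simpa [posn] using h')]; rfl
  · rw [if_neg (n0 (by decide)), if_neg (n1 (by decide)), if_neg (n2 (by decide)),
      if_pos (by simpa [posn] using h')]; rfl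
  · rw [if_neg (n0 (by decide)), if_neg (n1 (by decide)), if_neg (n2 (by decide)),
      if_neg (n3 (by decide))]; rfl

theorem U_val {i : Fin 5} {p : Sp (n + 2)} (hp : ‖p - posn n i‖ < 1 / 200) :
    D.U p = (![uS p, D.UY p, uZ (e0 n) p, D.UY (sg n p), uZ (e0 n) (sg n p)] : Fin 5 → ℝ) i := by
  have h' : ‖p - posn n i‖ < 1 / 4 := by linarith
  have n0 : i ≠ 0 → ¬ ‖p‖ < 1 / 4 := fun h => by
    simpa [posn] using not_near (j := 0) h hp
  have n1 : i ≠ 1 → ¬ ‖p - e0 n‖ < 1 / 4 := fun h => by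
    simpa [posn] using not_near (j := 1) h hp
  have n2 : i ≠ 2 → ¬ ‖p + e0 n‖ < 1 / 4 := fun h => by
    simpa [posn] using not_near (j := 2) h hp
  have n3 : i ≠ 3 → ¬ ‖p - e1 n‖ < 1 / 4 := fun h => by
    simpa [posn] using not_near (j := 3) h hp
  unfold U
  fin_cases i
  · rw [if_pos (by simpa [posn] using h')]; rfl
  · rw [if_neg (n0 (by decide)), if_pos (by simpa [posn] using h')]; rfl
  · rw [if_neg (n0 (by decide)), if_neg (n1 (by decide)), if_pos (by simpa [posn] using h')]; rfl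
  · rw [if_neg (n0 (by decide)), if_neg (n1 (by decide)), if_neg (n2 (by decide)),
      if_pos (by simpa [posn] using h')]; rfl
  · rw [if_neg (n0 (by decide)), if_neg (n1 (by decide)), if_neg (n2 (by decide)),
      if_neg (n3 (by decide))]; rfl

theorem U_S {s : Sp (n + 2)} (hs : s ∈ D.S) : D.U s = uS s :=
  D.U_val (i := 0) (D.near (i := 0) hs)

theorem U_F {s : Sp (n + 2)} (hs : s ∈ D.S) : D.U (D.F s) = D.vY s := by
  rw [D.U_val (i := 1) (D.near (i := 1) ⟨s, hs, rfl⟩)]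
  exact D.UY_F hs

theorem U_G {s : Sp (n + 2)} (hs : s ∈ D.S) : D.U (D.G s) = uZ (e0 n) (D.G s) := by
  rw [D.U_val (i := 2) (D.near (i := 2) ⟨s, hs, rfl⟩)]
  rfl

theorem U_F' {s : Sp (n + 2)} (hs : s ∈ D.S) : D.U (D.F' s) = D.vY (sg n s) := by
  rw [D.U_val (i := 3) (D.near (i := 3) ⟨s, hs, rfl⟩)]
  show D.UY (sg n (sg n (D.F (sg n s)))) = _
  rw [sg_sg, D.UY_F (D.sg_mem hs)]

theorem U_G' {s : Sp (n + 2)} (hs : s ∈ D.S) : D.U (D.G' s) = uZ (e0 n) (D.G (sg n s)) := by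
  rw [D.U_val (i := 4) (D.near (i := 4) ⟨s, hs, rfl⟩)]
  show uZ (e0 n) (sg n (sg n (D.G (sg n s)))) = _
  rw [sg_sg]

theorem uS_sg (x : Sp (n + 2)) : uS (sg n x) = uS x := by
  unfold uS; rw [LinearIsometryEquiv.norm_map]

/-- bounds for the explicit potentials -/
theorem uS_bounds {x : Sp (n + 2)} (hx : x ∈ D.S) : 149 / 100 ≤ uS x ∧ uS x ≤ 150 / 100 := by
  have h : x ∈ ball (0 : Sp (n + 2)) D.ρ := hx
  rw [mem_ball_zero_iff] at h
  have := D.ρ_le
  unfold uS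
  constructor <;> nlinarith [norm_nonneg x]

theorem uZ_bounds {z : Sp (n + 2)} (hz : ‖z + e0 n‖ < 1 / 200) :
    49 / 100 ≤ uZ (e0 n) z ∧ uZ (e0 n) z ≤ 51 / 100 := by
  have h1 := abs_real_inner_le_norm (e0 n) (z + e0 n)
  rw [norm_e0, one_mul] at h1
  have h2 := abs_le.mp h1
  unfold uZ
  constructor <;> nlinarith [norm_nonneg (z + e0 n), h2.1, h2.2]

theorem vY_bounds {s : Sp (n + 2)} (hs : s ∈ D.S) : 0 ≤ D.vY s ∧ D.vY s ≤ 53 / 100 := by
  have h0 : s ∈ ball (0 : Sp (n + 2)) D.ρ := hs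
  rw [mem_ball_zero_iff] at h0
  have hρ := D.ρ_le
  have hF := D.hF s hs
  have hG := D.hG s hs
  have he := norm_e0 (n := n)
  have hx := (D.uS_bounds hs)
  have hz := uZ_bounds hG
  -- lower bounds on the distances
  have l1 : 99 / 100 ≤ ‖s - D.F s‖ := by
    have : ‖e0 n‖ ≤ ‖s - D.F s‖ + ‖s‖ + ‖D.F s - e0 n‖ := by
      calc ‖e0 n‖ = ‖-(s - D.F s) + s - (D.F s - e0 n)‖ := by congr 1; abel
        _ ≤ ‖-(s - D.F s) + s‖ + ‖D.F s - e0 n‖ := norm_sub_le _ _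
        _ ≤ ‖-(s - D.F s)‖ + ‖s‖ + ‖D.F s - e0 n‖ := by gcongr; exact norm_add_le _ _
        _ = _ := by rw [norm_neg]
    linarith
  have l2 : 99 / 100 ≤ ‖s - D.G s‖ := by
    have : ‖e0 n‖ ≤ ‖s - D.G s‖ + ‖s‖ + ‖D.G s + e0 n‖ := by
      calc ‖e0 n‖ = ‖(s - D.G s) - s + (D.G s + e0 n)‖ := by congr 1; abel
        _ ≤ ‖(s - D.G s) - s‖ + ‖D.G s + e0 n‖ := norm_add_le _ _
        _ ≤ ‖(s - D.G s)‖ + ‖s‖ + ‖D.G s + e0 n‖ := by gcongr; exact norm_sub_le _ _
    linarith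
  have l3 : 199 / 100 ≤ ‖D.F s - D.G s‖ := by
    have : ‖e0 n + e0 n‖ ≤ ‖D.F s - D.G s‖ + ‖D.F s - e0 n‖ + ‖D.G s + e0 n‖ := by
      calc ‖e0 n + e0 n‖ = ‖(D.F s - D.G s) - (D.F s - e0 n) + (D.G s + e0 n)‖ := by
            congr 1; abel
        _ ≤ ‖(D.F s - D.G s) - (D.F s - e0 n)‖ + ‖D.G s + e0 n‖ := norm_add_le _ _
        _ ≤ _ := by gcongr; exact norm_sub_le _ _
    rw [← two_smul ℝ, norm_smul, he, Real.norm_eq_abs, abs_of_pos two_pos] at this
    linarith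
  -- upper bounds
  have m1 : ‖s - D.F s‖ ≤ 101 / 100 := by
    have : ‖s - D.F s‖ ≤ ‖s‖ + ‖D.F s - e0 n‖ + ‖e0 n‖ := by
      calc ‖s - D.F s‖ = ‖s - (D.F s - e0 n) - e0 n‖ := by congr 1; abel
        _ ≤ ‖s - (D.F s - e0 n)‖ + ‖e0 n‖ := norm_sub_le _ _
        _ ≤ _ := by gcongr; exact norm_sub_le _ _
    linarith
  have m2 : ‖s - D.G s‖ ≤ 101 / 100 := by
    have : ‖s - D.G s‖ ≤ ‖s‖ + ‖D.G s + e0 n‖ + ‖e0 n‖ := by
      calc ‖s - D.G s‖ = ‖s - (D.G s + e0 n) + e0 n‖ := by congr 1; abel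
        _ ≤ ‖s - (D.G s + e0 n)‖ + ‖e0 n‖ := norm_add_le _ _
        _ ≤ _ := by gcongr; exact norm_sub_le _ _
    linarith
  have m3 : ‖D.F s - D.G s‖ ≤ 201 / 100 := by
    have : ‖D.F s - D.G s‖ ≤ ‖D.F s - e0 n‖ + ‖D.G s + e0 n‖ + ‖e0 n + e0 n‖ := by
      calc ‖D.F s - D.G s‖ = ‖(D.F s - e0 n) - (D.G s + e0 n) + (e0 n + e0 n)‖ := by
            congr 1; abel
        _ ≤ ‖(D.F s - e0 n) - (D.G s + e0 n)‖ + ‖e0 n + e0 n‖ := norm_add_le _ _
        _ ≤ _ := by gcongr; exact norm_sub_le _ _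
    rw [← two_smul ℝ (e0 n), norm_smul, he, Real.norm_eq_abs, abs_of_pos two_pos] at this
    linarith
  have i1 : ‖s - D.F s‖⁻¹ ≤ (99 / 100 : ℝ)⁻¹ := by gcongr
  have i2 : ‖s - D.G s‖⁻¹ ≤ (99 / 100 : ℝ)⁻¹ := by gcongr
  have i3 : ‖D.F s - D.G s‖⁻¹ ≤ (199 / 100 : ℝ)⁻¹ := by gcongr
  have j1 : (101 / 100 : ℝ)⁻¹ ≤ ‖s - D.F s‖⁻¹ := by gcongr
  have j2 : (101 / 100 : ℝ)⁻¹ ≤ ‖s - D.G s‖⁻¹ := by gcongr
  have j3 : (201 / 100 : ℝ)⁻¹ ≤ ‖D.F s - D.G s‖⁻¹ := by gcongr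
  have h3 : (14999 / 10000 : ℝ) ≤ uS s := by
    unfold uS; nlinarith [norm_nonneg s]
  have h4 : (4937 / 10000 : ℝ) ≤ uZ (e0 n) (D.G s) := by
    have h1 := abs_real_inner_le_norm (e0 n) (D.G s + e0 n)
    rw [norm_e0, one_mul] at h1
    have h2 := abs_le.mp h1
    unfold uZ
    nlinarith [norm_nonneg (D.G s + e0 n), h2.1, h2.2]
  unfold vY cR
  norm_num at i1 i2 i3 j1 j2 j3
  constructor <;> linarith

theorem U_bounds {i : Fin 5} {p : Sp (n + 2)} (hp : p ∈ D.Kset i) :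
    0 ≤ D.U p ∧ D.U p ≤ (ubn i : ℝ) / 100 := by
  fin_cases i
  · have h : p ∈ D.S := hp
    rw [D.U_S h]
    have := D.uS_bounds h
    simp only [ubn]
    constructor
    · linarith
    · norm_num; linarith
  · obtain ⟨s, hs, rfl⟩ : p ∈ D.F '' D.S := hp
    rw [D.U_F hs]
    have := D.vY_bounds hs
    simp only [ubn]
    constructor
    · linarith
    · norm_num; linarith
  · obtain ⟨s, hs, rfl⟩ : p ∈ D.G '' D.S := hp
    rw [D.U_G hs]
    have := uZ_bounds (D.hG s hs)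
    simp only [ubn]
    constructor
    · linarith
    · norm_num; linarith
  · obtain ⟨s, hs, rfl⟩ : p ∈ D.F' '' D.S := hp
    rw [D.U_F' hs]
    have := D.vY_bounds (D.sg_mem hs)
    simp only [ubn]
    constructor
    · linarith
    · norm_num; linarith
  · obtain ⟨s, hs, rfl⟩ : p ∈ D.G' '' D.S := hp
    rw [D.U_G' hs]
    have := uZ_bounds (D.hG _ (D.sg_mem hs))
    simp only [ubn]
    constructor
    · linarith
    · norm_num; linarith

/-- the property of triples that we need -/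
def Good (p q r : Sp (n + 2)) : Prop :=
  D.U p + D.U q + D.U r ≤ cR p q r ∧ (D.U p + D.U q + D.U r = cR p q r →
    ∃ s ∈ D.S, Perm3 s (D.F s) (D.G s) p q r ∨ Perm3 s (D.F' s) (D.G' s) p q r)

variable {D}

theorem Good.swap12 {p q r : Sp (n + 2)} (h : D.Good p q r) : D.Good q p r := by
  unfold Good at *
  rw [cR_swap12 p q r, show D.U q + D.U p + D.U r = D.U p + D.U q + D.U r by ring]
  refine ⟨h.1, fun he => ?_⟩
  obtain ⟨s, hs, h'⟩ := h.2 he
  exact ⟨s, hs, h'.imp Perm3.swap12 Perm3.swap12⟩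

theorem Good.swap23 {p q r : Sp (n + 2)} (h : D.Good p q r) : D.Good p r q := by
  unfold Good at *
  rw [cR_swap23 p q r, show D.U p + D.U r + D.U q = D.U p + D.U q + D.U r by ring]
  refine ⟨h.1, fun he => ?_⟩
  obtain ⟨s, hs, h'⟩ := h.2 he
  exact ⟨s, hs, h'.imp Perm3.swap23 Perm3.swap23⟩

variable (D)

theorem contact1 {p q r : Sp (n + 2)} (hp : p ∈ D.Kset 0) (hq : q ∈ D.Kset 1)
    (hr : r ∈ D.Kset 2) : D.Good p q r := by
  have hp : p ∈ D.S := hp
  obtain ⟨s, hs, rfl⟩ : q ∈ D.F '' D.S := hq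
  obtain ⟨t, ht, rfl⟩ : r ∈ D.G '' D.S := hr
  unfold Good
  rw [D.U_S hp, D.U_F hs, D.U_G ht]
  by_cases h : (p, D.G t) = (s, D.G s)
  · rw [Prod.mk.injEq] at h
    rw [h.1, h.2]
    unfold vY
    refine ⟨by linarith, fun _ => ⟨s, hs, Or.inl (Or.inl ⟨rfl, rfl, rfl⟩)⟩⟩
  · have := D.hmin s hs p hp t ht h
    unfold vY
    refine ⟨by linarith, fun he => ?_⟩
    exfalso
    linarith

theorem contact2 {p q r : Sp (n + 2)} (hp : p ∈ D.Kset 0) (hq : q ∈ D.Kset 3)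
    (hr : r ∈ D.Kset 4) : D.Good p q r := by
  have hp : p ∈ D.S := hp
  obtain ⟨s, hs, rfl⟩ : q ∈ D.F' '' D.S := hq
  obtain ⟨t, ht, rfl⟩ : r ∈ D.G' '' D.S := hr
  unfold Good
  rw [D.U_S hp, D.U_F' hs, D.U_G' ht, ← cR_sg]
  unfold F' G'
  rw [sg_sg, sg_sg, ← uS_sg p]
  have hp' := D.sg_mem hp
  have hs' := D.sg_mem hs
  have ht' := D.sg_mem ht
  by_cases h : (sg n p, D.G (sg n t)) = (sg n s, D.G (sg n s))
  · rw [Prod.mk.injEq] at h
    rw [h.2, h.1]
    unfold vY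
    refine ⟨by linarith, fun _ => ⟨s, hs, Or.inr (Or.inl ⟨(sg n).injective h.1, rfl, rfl⟩)⟩⟩
  · have := D.hmin _ hs' _ hp' _ ht' h
    unfold vY
    refine ⟨by linarith, fun he => ?_⟩
    exfalso
    linarith

theorem good_of_mem {i j k : Fin 5} {p q r : Sp (n + 2)} (hp : p ∈ D.Kset i) (hq : q ∈ D.Kset j)
    (hr : r ∈ D.Kset k) (hpq : p ≠ q) (hpr : p ≠ r) (hqr : q ≠ r) : D.Good p q r := by
  by_cases h1 : ((i, j, k) = (0, 1, 2) ∨ (i, j, k) = (0, 2, 1) ∨ (i, j, k) = (1, 0, 2) ∨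
      (i, j, k) = (1, 2, 0) ∨ (i, j, k) = (2, 0, 1) ∨ (i, j, k) = (2, 1, 0))
  · simp only [Prod.mk.injEq] at h1
    rcases h1 with ⟨rfl, rfl, rfl⟩ | ⟨rfl, rfl, rfl⟩ | ⟨rfl, rfl, rfl⟩ | ⟨rfl, rfl, rfl⟩ |
      ⟨rfl, rfl, rfl⟩ | ⟨rfl, rfl, rfl⟩
    · exact D.contact1 hp hq hr
    · exact (D.contact1 hp hr hq).swap23
    · exact (D.contact1 hq hp hr).swap12
    · exact (D.contact1 hr hp hq).swap12.swap23
    · exact (D.contact1 hq hr hp).swap23.swap12
    · exact (D.contact1 hr hq hp).swap12.swap23.swap12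
  by_cases h2 : ((i, j, k) = (0, 3, 4) ∨ (i, j, k) = (0, 4, 3) ∨ (i, j, k) = (3, 0, 4) ∨
      (i, j, k) = (3, 4, 0) ∨ (i, j, k) = (4, 0, 3) ∨ (i, j, k) = (4, 3, 0))
  · simp only [Prod.mk.injEq] at h2
    rcases h2 with ⟨rfl, rfl, rfl⟩ | ⟨rfl, rfl, rfl⟩ | ⟨rfl, rfl, rfl⟩ | ⟨rfl, rfl, rfl⟩ |
      ⟨rfl, rfl, rfl⟩ | ⟨rfl, rfl, rfl⟩
    · exact D.contact2 hp hq hr
    · exact (D.contact2 hp hr hq).swap23
    · exact (D.contact2 hq hp hr).swap12
    · exact (D.contact2 hr hp hq).swap12.swap23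
    · exact (D.contact2 hq hr hp).swap23.swap12
    · exact (D.contact2 hr hq hp).swap12.swap23.swap12
  have ht := table i j k h1 h2
  have hlt : D.U p + D.U q + D.U r < cR p q r := by
    have a1 := (D.U_bounds hp).2
    have a2 := (D.U_bounds hq).2
    have a3 := (D.U_bounds hr).2
    have b1 := inv_dist_lower (D.near hp) (D.near hq) hpq
    have b2 := inv_dist_lower (D.near hp) (D.near hr) hpr
    have b3 := inv_dist_lower (D.near hq) (D.near hr) hqr
    have ht' : (ubn i : ℝ) + ubn j + ubn k < Lbn i j + Lbn i k + Lbn j k := by exact_mod_cast ht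
    unfold cR
    linarith
  exact ⟨hlt.le, fun he => absurd he hlt.ne⟩

end LocalData

end Vale.Agent.P121
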