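import Vale.Agent.P121.Final

/-!
The measure of the counterexample has a bounded density.
-/

open Set Metric Filter Topology MeasureTheory
open scoped NNReal ENNReal

namespace Vale.Agent.P121

theorem preimage_le {E : Type*} [NormedAddCommGroup E] [InnerProductSpace ℝ E]
    [FiniteDimensional ℝ E] [MeasurableSpace E] [BorelSpace E] {f : E → E} {S : Set E} {C : ℝ≥0}
    (h : ∀ x ∈ S, ∀ y ∈ S, ‖x - y‖ ≤ C * ‖f x - f y‖) :
    ∃ c : ℝ≥0, ∀ A : Set E, volume (f ⁻¹' A ∩ S) ≤ c * volume A := by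
  have hHaar := isAddHaarMeasure_hausdorffMeasure (E := E)
  set m : Measure E := Measure.hausdorffMeasure (Module.finrank ℝ E : ℝ) with hm
  have e1 : (volume : Measure E) = Measure.addHaarScalarFactor volume m • m :=
    Measure.isAddLeftInvariant_eq_smul _ _
  have e2 : m = Measure.addHaarScalarFactor m volume • volume :=
    Measure.isAddLeftInvariant_eq_smul _ _
  have hd : (0 : ℝ) ≤ (Module.finrank ℝ E : ℝ) := by positivity
  have hanti : AntilipschitzWith C (fun x : S => f x) := by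
    refine AntilipschitzWith.of_le_mul_dist fun x y => ?_
    rw [Subtype.dist_eq, dist_eq_norm, dist_eq_norm]
    exact h x x.2 y y.2
  set a := Measure.addHaarScalarFactor (volume : Measure E) m with ha
  set b := Measure.addHaarScalarFactor m (volume : Measure E) with hb
  refine ⟨a * (C ^ (Module.finrank ℝ E) * b), fun A => ?_⟩
  have h1 := hanti.hausdorffMeasure_preimage_le hd A
  have h2 : f ⁻¹' A ∩ S = Subtype.val '' ((fun x : S => f x) ⁻¹' A) := by
    ext x
    simp only [mem_inter_iff, mem_preimage, mem_image, Subtype.exists, exists_and_left,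
      exists_prop, exists_eq_right_right]
  have h3 : m (f ⁻¹' A ∩ S) ≤ (C : ℝ≥0∞) ^ (Module.finrank ℝ E : ℝ) * m A := by
    rw [h2, hm, isometry_subtype_coe.hausdorffMeasure_image (Or.inl hd)]
    exact h1
  have h4 : m A = b * volume A := by
    conv_lhs => rw [e2]
    rfl
  have h5 : volume (f ⁻¹' A ∩ S) = a * m (f ⁻¹' A ∩ S) := by
    conv_lhs => rw [e1]
    rfl
  rw [h5]
  calc (a : ℝ≥0∞) * m (f ⁻¹' A ∩ S) ≤ a * ((C : ℝ≥0∞) ^ (Module.finrank ℝ E : ℝ) * m A) := by
        gcongr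
    _ = ((a * (C ^ (Module.finrank ℝ E) * b) : ℝ≥0) : ℝ≥0∞) * volume A := by
        rw [h4, ENNReal.rpow_natCast]
        push_cast
        ring

namespace LocalData

variable {n : ℕ} (D : LocalData n)

theorem ν_le_smul : ∃ c : ℝ≥0, ∀ A : Set (Sp (n + 2)), D.ν A ≤ c * volume A := by
  have hf : (6 * volume D.S)⁻¹ ≠ ∞ := by
    simp [D.volS_pos]
  refine ⟨((6 * volume D.S)⁻¹).toNNReal, fun A => ?_⟩
  unfold ν
  rw [Measure.smul_apply, smul_eq_mul, ENNReal.coe_toNNReal hf]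
  gcongr
  exact Measure.restrict_le_self

theorem ν_map_le {f : Sp (n + 2) → Sp (n + 2)} (mf : Measurable f)
    (h : ∀ x ∈ D.S, ∀ y ∈ D.S, ‖x - y‖ ≤ D.C * ‖f x - f y‖) :
    ∃ c : ℝ≥0, ∀ A : Set (Sp (n + 2)), MeasurableSet A → D.ν.map f A ≤ c * volume A := by
  have hf : (6 * volume D.S)⁻¹ ≠ ∞ := by
    simp [D.volS_pos]
  obtain ⟨c, hc⟩ := preimage_le h
  refine ⟨((6 * volume D.S)⁻¹).toNNReal * c, fun A mA => ?_⟩
  rw [Measure.map_apply mf mA]
  unfold ν
  rw [Measure.smul_apply, Measure.restrict_apply (mf mA), smul_eq_mul, ENNReal.coe_mul,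
    ENNReal.coe_toNNReal hf, mul_assoc]
  gcongr
  exact hc A

theorem μ_le : ∃ c : ℝ≥0, D.μ ≤ c • volume := by
  obtain ⟨c0, h0⟩ := D.ν_le_smul
  obtain ⟨c1, h1⟩ := D.ν_map_le D.mF D.lF
  obtain ⟨c2, h2⟩ := D.ν_map_le D.mG D.lG
  obtain ⟨c3, h3⟩ := D.ν_map_le D.mF' D.lF'
  obtain ⟨c4, h4⟩ := D.ν_map_le D.mG' D.lG'
  refine ⟨c0 + c0 + c1 + c2 + c3 + c4, Measure.le_iff.mpr fun A mA => ?_⟩
  unfold μ
  simp only [Measure.add_apply, Measure.smul_apply]
  calc D.ν A + D.ν A + (D.ν.map D.F) A + (D.ν.map D.G) A + (D.ν.map D.F') A + (D.ν.map D.G') A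
      ≤ c0 * volume A + c0 * volume A + c1 * volume A + c2 * volume A + c3 * volume A
        + c4 * volume A := by
        gcongr
        · exact h0 A
        · exact h0 A
        · exact h1 A mA
        · exact h2 A mA
        · exact h3 A mA
        · exact h4 A mA
    _ = _ := by
        rw [ENNReal.smul_def, smul_eq_mul]
        push_cast
        ring

end LocalData

/-- the general theorem with bounded density, in dimension `n + 2` -/
theorem exists_no_monge_bdd (n : ℕ) : ∃ μ : Measure (EuclideanSpace ℝ (Fin (n + 2))),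
    IsProbabilityMeasure μ ∧ (∃ c : ℝ≥0, μ ≤ c • volume) ∧ μ (closedBall 0 2)ᶜ = 0 ∧
      kantorovichValue μ < ∞ ∧ ∀ T₂ T₃, ¬ IsOptimalMongePlan μ T₂ T₃ := by
  obtain ⟨D⟩ := exists_localData n
  have hplan := exists_plan (coulombCost (d := n + 2)) measurable_coulombCost coulombCost_sym D.ν
    D.S D.ν_compl D.ν_univ D.F D.G D.F' D.G' D.mF D.mG D.mF' D.mG' D.μ rfl D.u D.mu D.cost1 D.cost2
  obtain ⟨π, h1, h2, h3, h4, h5⟩ := hplan
  have hval : kantorovichValue D.μ ≤ 3 * ∫⁻ x, D.u x ∂D.μ := by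
    rw [← h5]
    exact iInf₂_le π ⟨h1, h2, h3, h4⟩
  have hfin : ∫⁻ x, D.u x ∂D.μ ≠ ∞ := ne_top_of_le_ne_top (by norm_num) D.u_int
  have hνfin : D.ν univ ≠ ∞ := fun h => by
    have := D.ν_univ
    rw [h] at this
    simp at this
  have hνpos : D.ν univ ≠ 0 := fun h => by
    have := D.ν_univ
    rw [h] at this
    simp at this
  refine ⟨D.μ, ⟨D.μ_univ⟩, D.μ_le, ?_, ?_, ?_⟩
  · refine D.μ_of_subset measurableSet_closedBall.compl ?_
    ext x
    simp only [mem_inter_iff, mem_compl_iff, mem_empty_iff_false, iff_false, not_and]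
    intro hx hxK
    apply hx
    obtain ⟨i, hi⟩ := mem_iUnion.mp hxK
    have h := D.near hi
    rw [mem_closedBall_zero_iff]
    have h2 : ‖posn n i‖ ≤ 1 := by
      have := norm_e0 (n := n)
      have := norm_e1 (n := n)
      fin_cases i <;> simp [posn, *]
    calc ‖x‖ = ‖(x - posn n i) + posn n i‖ := by congr 1; abel
      _ ≤ ‖x - posn n i‖ + ‖posn n i‖ := norm_add_le _ _
      _ ≤ 2 := by linarith
  · refine lt_of_le_of_lt hval ?_
    exact ENNReal.mul_lt_top (by norm_num) (lt_top_iff_ne_top.mpr hfin)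
  · rintro T₂ T₃ ⟨hT₂, hT₃, mT₂, mT₃, hcost⟩
    exact monge_false (coulombCost (d := n + 2)) measurable_coulombCost D.ν D.S D.mS D.ν_compl
      hνfin hνpos D.F D.G D.F' D.G' D.mF D.mG D.mF' D.mG' D.iF D.iG D.iF' D.iG'
      LocalData.lab D.l0 D.l1 D.l2 D.l3 D.l4 D.μ rfl D.u D.mu hfin D.K D.μ_compl D.mK D.hle D.heq
      T₂ T₃ hT₂ hT₃ mT₂ mT₃ (hcost.trans_le hval)

end Vale.Agent.P121
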