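import Vale.Agent.P121.Local

/-!
The local data: two maps `F`, `G` on a small ball with all the properties that are used later.
-/

open Set Metric Filter Topology MeasureTheory
open scoped RealInnerProductSpace

namespace Vale.Agent.P121

variable {n : ℕ}

/-- everything that is needed from the local analysis -/
structure LocalData (n : ℕ) where
  ρ : ℝ
  F : Sp (n + 2) → Sp (n + 2)
  G : Sp (n + 2) → Sp (n + 2)
  C : NNReal
  ρ_pos : 0 < ρ
  ρ_le : ρ ≤ 1 / 200
  mF : Measurable F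
  mG : Measurable G
  hF : ∀ x ∈ ball (0 : Sp (n + 2)) ρ, ‖F x - e0 n‖ < 1 / 200
  hG : ∀ x ∈ ball (0 : Sp (n + 2)) ρ, ‖G x + e0 n‖ < 1 / 200
  lF : ∀ x ∈ ball (0 : Sp (n + 2)) ρ, ∀ y ∈ ball (0 : Sp (n + 2)) ρ,
    ‖x - y‖ ≤ C * ‖F x - F y‖
  lG : ∀ x ∈ ball (0 : Sp (n + 2)) ρ, ∀ y ∈ ball (0 : Sp (n + 2)) ρ,
    ‖x - y‖ ≤ C * ‖G x - G y‖
  hmin : ∀ s ∈ ball (0 : Sp (n + 2)) ρ, ∀ x ∈ ball (0 : Sp (n + 2)) ρ,
    ∀ t ∈ ball (0 : Sp (n + 2)) ρ, (x, G t) ≠ (s, G s) →
      cR s (F s) (G s) - uS s - uZ (e0 n) (G s) < cR x (F s) (G t) - uS x - uZ (e0 n) (G t)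

theorem exists_localData (n : ℕ) : Nonempty (LocalData n) := by
  classical
  obtain ⟨δ, hδ, hmin⟩ := exists_strict_min (n := n)
  obtain ⟨ρ, hρ, R, hRc, hR0, hR⟩ := exists_branch (n := n)
  obtain ⟨C₂, hC₂, s₂, hs₂, h₂⟩ := exists_antilip (hasStrictFDerivAt_Phi (norm_e0 (n := n)))
    P2 (fun w h1 h2 => Lin_inj2 h1 h2)
  obtain ⟨C₃, hC₃, s₃, hs₃, h₃⟩ := exists_antilip (hasStrictFDerivAt_Phi (norm_e0 (n := n)))
    P3 (fun w h1 h2 => Lin_inj3 h1 h2)
  have hcont : ContinuousAt R 0 := (hRc 0 (mem_ball_self hρ)).continuousAt (ball_mem_nhds 0 hρ)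
  rw [ContinuousAt, hR0] at hcont
  have hε : 0 < min δ (1 / 200) := by positivity
  have hb : ball ((0, e0 n, -e0 n) : Sp (n + 2) × Sp (n + 2) × Sp (n + 2)) (min δ (1 / 200)) ∈
      𝓝 ((0, e0 n, -e0 n) : Sp (n + 2) × Sp (n + 2) × Sp (n + 2)) := ball_mem_nhds _ hε
  have hev := hcont (inter_mem (inter_mem hb hs₂) hs₃)
  obtain ⟨ρ', hρ', hball⟩ := Metric.mem_nhds_iff.mp hev
  set r := min (min ρ ρ') (min δ (1 / 200)) with hr
  have hr0 : 0 < r := by positivity
  have sub1 : ball (0 : Sp (n + 2)) r ⊆ ball 0 ρ :=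
    ball_subset_ball ((min_le_left _ _).trans (min_le_left _ _))
  have sub2 : ball (0 : Sp (n + 2)) r ⊆ ball 0 ρ' :=
    ball_subset_ball ((min_le_left _ _).trans (min_le_right _ _))
  have hmem : ∀ x ∈ ball (0 : Sp (n + 2)) r,
      R x ∈ ball ((0, e0 n, -e0 n) : Sp (n + 2) × Sp (n + 2) × Sp (n + 2)) (min δ (1 / 200)) ∧
      R x ∈ s₂ ∧ R x ∈ s₃ := fun x hx => by
    have := hball (sub2 hx)
    exact ⟨this.1.1, this.1.2, this.2⟩
  have hcomp : ∀ x ∈ ball (0 : Sp (n + 2)) r, (R x).2.1 ∈ ball (e0 n) (min δ (1 / 200)) ∧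
      (R x).2.2 ∈ ball (-e0 n) (min δ (1 / 200)) := fun x hx => by
    have := (hmem x hx).1
    rw [← ball_prod_same, ← ball_prod_same] at this
    exact ⟨this.2.1, this.2.2⟩
  have hRx : ∀ x ∈ ball (0 : Sp (n + 2)) r, R x = (x, (R x).2.1, (R x).2.2) := fun x hx => by
    have h1 := (hR x (sub1 hx)).1
    ext1
    · exact h1
    · rfl
  have mB : MeasurableSet (ball (0 : Sp (n + 2)) r) := measurableSet_ball
  have mR : Measurable ((ball (0 : Sp (n + 2)) r).piecewise R (fun _ => 0)) :=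
    ContinuousOn.measurable_piecewise (hRc.mono sub1) continuousOn_const mB
  set R' := (ball (0 : Sp (n + 2)) r).piecewise R (fun _ => 0) with hR'
  have hR'x : ∀ x ∈ ball (0 : Sp (n + 2)) r, R' x = R x := fun x hx =>
    piecewise_eq_of_mem _ _ _ hx
  refine ⟨{
    ρ := r
    F := fun x => (R' x).2.1
    G := fun x => (R' x).2.2
    C := Real.toNNReal (max C₂ C₃)
    ρ_pos := hr0
    ρ_le := (min_le_right _ _).trans (min_le_right _ _)
    mF := (measurable_fst.comp measurable_snd).comp mR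
    mG := (measurable_snd.comp measurable_snd).comp mR
    hF := ?_
    hG := ?_
    lF := ?_
    lG := ?_
    hmin := ?_ }⟩
  · intro x hx
    rw [hR'x x hx]
    have := (hcomp x hx).1
    rw [mem_ball, dist_eq_norm] at this
    exact this.trans_le (min_le_right _ _)
  · intro x hx
    rw [hR'x x hx]
    have := (hcomp x hx).2
    rw [mem_ball, dist_eq_norm, sub_neg_eq_add] at this
    exact this.trans_le (min_le_right _ _)
  · intro x hx y hy
    rw [hR'x x hx, hR'x y hy]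
    have h := h₂ (R x) (hmem x hx).2.1 (R y) (hmem y hy).2.1
      ((hR x (sub1 hx)).2.trans (hR y (sub1 hy)).2.symm)
    have h1 : ‖x - y‖ ≤ ‖R x - R y‖ := by
      have := norm_fst_le (R x - R y)
      rwa [Prod.fst_sub, (hR x (sub1 hx)).1, (hR y (sub1 hy)).1] at this
    refine h1.trans (h.trans ?_)
    simp only [P2_apply]
    gcongr
    rw [Real.coe_toNNReal']
    exact (le_max_left _ _).trans (le_max_left _ _)
  · intro x hx y hy
    rw [hR'x x hx, hR'x y hy]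
    have h := h₃ (R x) (hmem x hx).2.2 (R y) (hmem y hy).2.2
      ((hR x (sub1 hx)).2.trans (hR y (sub1 hy)).2.symm)
    have h1 : ‖x - y‖ ≤ ‖R x - R y‖ := by
      have := norm_fst_le (R x - R y)
      rwa [Prod.fst_sub, (hR x (sub1 hx)).1, (hR y (sub1 hy)).1] at this
    refine h1.trans (h.trans ?_)
    simp only [P3_apply]
    gcongr
    rw [Real.coe_toNNReal']
    exact (le_max_right _ _).trans (le_max_left _ _)
  · intro s hs x hx t ht hne
    rw [hR'x s hs, hR'x t ht] at *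
    have sub3 : ∀ p : Sp (n + 2), ball p (min δ (1 / 200)) ⊆ ball p δ := fun p =>
      ball_subset_ball (min_le_left _ _)
    have sub4 : ball (0 : Sp (n + 2)) r ⊆ ball 0 δ :=
      ball_subset_ball ((min_le_right _ _).trans (min_le_left _ _))
    refine hmin s (sub4 hs) _ (sub3 _ (hcomp s hs).1) _ (sub3 _ (hcomp s hs).2) ?_ x (sub4 hx) _
      (sub3 _ (hcomp t ht).2) hne
    rw [← hRx s hs]
    exact (hR s (sub1 hs)).2

end Vale.Agent.P121
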