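import Mathlib

/-!
The three-marginal optimal transport problem with Coulomb cost on `ℝ^d`.
-/

open MeasureTheory
open scoped ENNReal

namespace Vale.Agent.P121

/-- The Coulomb cost `1/|x₁-x₂| + 1/|x₁-x₃| + 1/|x₂-x₃|` of a triple of points of `ℝ^d`, as an
extended nonnegative real; it is `∞` when two of the points coincide. -/
noncomputable def coulombCost {d : ℕ}
    (p : EuclideanSpace ℝ (Fin d) × EuclideanSpace ℝ (Fin d) × EuclideanSpace ℝ (Fin d)) : ℝ≥0∞ :=
  (edist p.1 p.2.1)⁻¹ + (edist p.1 p.2.2)⁻¹ + (edist p.2.1 p.2.2)⁻¹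

/-- `π` is a Borel probability measure on `(ℝ^d)^3` all of whose three marginals equal `μ`. -/
def IsCoupling {d : ℕ} (μ : Measure (EuclideanSpace ℝ (Fin d)))
    (π : Measure (EuclideanSpace ℝ (Fin d) × EuclideanSpace ℝ (Fin d) ×
      EuclideanSpace ℝ (Fin d))) : Prop :=
  IsProbabilityMeasure π ∧ π.map (fun p => p.1) = μ ∧ π.map (fun p => p.2.1) = μ ∧
    π.map (fun p => p.2.2) = μ

/-- The Kantorovich value: the infimum of the Coulomb cost over all couplings. -/
noncomputable def kantorovichValue {d : ℕ} (μ : Measure (EuclideanSpace ℝ (Fin d))) : ℝ≥0∞ :=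
  ⨅ π ∈ {π | IsCoupling μ π}, ∫⁻ p, coulombCost p ∂π

/-- The plan `(Id, T₂, T₃)_# μ` is a Monge plan (the Borel maps `T₂`, `T₃` push `μ` forward to
`μ`) and its cost equals the Kantorovich value of `μ`. -/
def IsOptimalMongePlan {d : ℕ} (μ : Measure (EuclideanSpace ℝ (Fin d)))
    (T₂ T₃ : EuclideanSpace ℝ (Fin d) → EuclideanSpace ℝ (Fin d)) : Prop :=
  Measurable T₂ ∧ Measurable T₃ ∧ μ.map T₂ = μ ∧ μ.map T₃ = μ ∧
    ∫⁻ x, coulombCost (x, T₂ x, T₃ x) ∂μ = kantorovichValue μ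

end Vale.Agent.P121
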