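import Vale.Agent.P121.Kernel

/-!
The critical-point equations of the local three-body problem and their linearisation.
-/

open scoped RealInnerProductSpace

namespace Vale.Agent.P121

section General

variable {E : Type*} [NormedAddCommGroup E] [InnerProductSpace ℝ E]

/-- gradient in `(x, z)` of the local functional -/
noncomputable def Phi (e : E) (w : E × E × E) : E × E :=
  ((4 : ℝ) • w.1 - ker (w.1 - w.2.1) - ker (w.1 - w.2.2),
   (2 : ℝ) • (w.2.2 + e) - (5 / 4 : ℝ) • e - ker (w.2.2 - w.1) - ker (w.2.2 - w.2.1))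

/-- projections -/
noncomputable def P1 : (E × E × E) →L[ℝ] E := ContinuousLinearMap.fst ℝ E (E × E)
noncomputable def P2 : (E × E × E) →L[ℝ] E :=
  (ContinuousLinearMap.fst ℝ E E).comp (ContinuousLinearMap.snd ℝ E (E × E))
noncomputable def P3 : (E × E × E) →L[ℝ] E :=
  (ContinuousLinearMap.snd ℝ E E).comp (ContinuousLinearMap.snd ℝ E (E × E))

@[simp] theorem P1_apply (w : E × E × E) : (P1 : (E × E × E) →L[ℝ] E) w = w.1 := rfl
@[simp] theorem P2_apply (w : E × E × E) : (P2 : (E × E × E) →L[ℝ] E) w = w.2.1 := rfl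
@[simp] theorem P3_apply (w : E × E × E) : (P3 : (E × E × E) →L[ℝ] E) w = w.2.2 := rfl

/-- the linearisation of `Phi` at `(0, e, -e)` -/
noncomputable def Lin (e : E) : (E × E × E) →L[ℝ] (E × E) :=
  ((4 : ℝ) • P1 - (D1 e).comp (P1 - P2) - (D1 e).comp (P1 - P3)).prod
    ((2 : ℝ) • P3 - (D1 e).comp (P3 - P1) - ((1 / 8 : ℝ) • D1 e).comp (P3 - P2))

theorem Lin_apply (e : E) (w : E × E × E) : Lin e w =
    ((4 : ℝ) • w.1 - D1 e (w.1 - w.2.1) - D1 e (w.1 - w.2.2),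
     (2 : ℝ) • w.2.2 - D1 e (w.2.2 - w.1) - (1 / 8 : ℝ) • D1 e (w.2.2 - w.2.1)) := rfl

theorem Phi_center {e : E} (he : ‖e‖ = 1) : Phi e (0, e, -e) = 0 := by
  have h1 : ker (-e) = -e := by
    have := ker_smul he (-1)
    simpa using this
  have h2 : ker e = e := by
    have := ker_smul he 1
    simpa using this
  have h3 : ker (-e - e) = -(1 / 4 : ℝ) • e := by
    have := ker_smul he (-2)
    rw [show -e - e = (-2 : ℝ) • e by module, this]
    norm_num
  simp only [Phi, Prod.mk_eq_zero]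
  constructor
  · simp [h1, h2]
  · rw [h3]
    simp only [sub_zero, h1]
    module

theorem hasStrictFDerivAt_Phi {e : E} (he : ‖e‖ = 1) :
    HasStrictFDerivAt (Phi e) (Lin e) (0, e, -e) := by
  have k1 : HasStrictFDerivAt (ker : E → E) (D1 e) ((P1 - P2 : (E × E × E) →L[ℝ] E) (0, e, -e)) := by
    have := hasStrictFDerivAt_ker_smul he (c := -1) (by norm_num)
    simpa using this
  have k2 : HasStrictFDerivAt (ker : E → E) (D1 e) ((P1 - P3 : (E × E × E) →L[ℝ] E) (0, e, -e)) := by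
    have := hasStrictFDerivAt_ker_smul he (c := 1) (by norm_num)
    simpa using this
  have k3 : HasStrictFDerivAt (ker : E → E) (D1 e) ((P3 - P1 : (E × E × E) →L[ℝ] E) (0, e, -e)) := by
    have := hasStrictFDerivAt_ker_smul he (c := -1) (by norm_num)
    simpa using this
  have k4 : HasStrictFDerivAt (ker : E → E) ((1 / 8 : ℝ) • D1 e)
      ((P3 - P2 : (E × E × E) →L[ℝ] E) (0, e, -e)) := by
    have := hasStrictFDerivAt_ker_smul he (c := -2) (by norm_num)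
    have h : ((P3 - P2 : (E × E × E) →L[ℝ] E) (0, e, -e)) = (-2 : ℝ) • e := by
      simp; module
    rw [h]
    convert this using 2
    norm_num
  have c1 := k1.comp (0, e, -e) (P1 - P2 : (E × E × E) →L[ℝ] E).hasStrictFDerivAt
  have c2 := k2.comp (0, e, -e) (P1 - P3 : (E × E × E) →L[ℝ] E).hasStrictFDerivAt
  have c3 := k3.comp (0, e, -e) (P3 - P1 : (E × E × E) →L[ℝ] E).hasStrictFDerivAt
  have c4 := k4.comp (0, e, -e) (P3 - P2 : (E × E × E) →L[ℝ] E).hasStrictFDerivAt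
  have a1 : HasStrictFDerivAt (fun w : E × E × E => (4 : ℝ) • w.1) ((4 : ℝ) • P1) (0, e, -e) :=
    ((4 : ℝ) • (P1 : (E × E × E) →L[ℝ] E)).hasStrictFDerivAt
  have a2 : HasStrictFDerivAt (fun w : E × E × E => (2 : ℝ) • (w.2.2 + e) - (5 / 4 : ℝ) • e)
      ((2 : ℝ) • P3) (0, e, -e) := by
    have := (((2 : ℝ) • (P3 : (E × E × E) →L[ℝ] E)).hasStrictFDerivAt
      (x := (0, e, -e))).add_const ((2 : ℝ) • e - (5 / 4 : ℝ) • e)
    have hfun : (fun w : E × E × E => (2 : ℝ) • (w.2.2 + e) - (5 / 4 : ℝ) • e) =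
        fun x => ((2 : ℝ) • (P3 : (E × E × E) →L[ℝ] E)) x + ((2 : ℝ) • e - (5 / 4 : ℝ) • e) := by
      funext w
      simp only [smul_apply, P3_apply]
      module
    rw [hfun]
    exact this
  exact ((a1.sub c1).sub c2).prodMk ((a2.sub c3).sub c4)

end General

section Coord

/-- Euclidean space of dimension `d` -/
abbrev Sp (d : ℕ) := EuclideanSpace ℝ (Fin d)

variable {n : ℕ}

/-- first basis vector -/
noncomputable def e0 (n : ℕ) : Sp (n + 2) := EuclideanSpace.single 0 1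

theorem norm_e0 : ‖e0 n‖ = 1 := by simp [e0]

theorem inner_e0 (h : Sp (n + 2)) : ⟪e0 n, h⟫ = h 0 := by
  simp [e0, EuclideanSpace.inner_single_left]

theorem D1_coord (h : Sp (n + 2)) (i : Fin (n + 2)) :
    (D1 (e0 n) h) i = if i = 0 then -2 * h i else h i := by
  rw [D1_apply, inner_e0]
  by_cases hi : i = 0
  · subst hi
    simp [e0]; ring
  · simp [e0, hi]

theorem Lin_fst_coord (w : Sp (n + 2) × Sp (n + 2) × Sp (n + 2)) (i : Fin (n + 2)) :
    (Lin (e0 n) w).1 i = if i = 0 then 8 * w.1 i - 2 * w.2.1 i - 2 * w.2.2 i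
      else 2 * w.1 i + w.2.1 i + w.2.2 i := by
  rw [Lin_apply]
  simp only [PiLp.sub_apply, PiLp.smul_apply, D1_coord, smul_eq_mul]
  split_ifs <;> ring

theorem Lin_snd_coord (w : Sp (n + 2) × Sp (n + 2) × Sp (n + 2)) (i : Fin (n + 2)) :
    (Lin (e0 n) w).2 i = if i = 0 then (17 / 4) * w.2.2 i - 2 * w.1 i - (1 / 4) * w.2.1 i
      else (7 / 8) * w.2.2 i + w.1 i + (1 / 8) * w.2.1 i := by
  rw [Lin_apply]
  simp only [PiLp.sub_apply, PiLp.smul_apply, D1_coord, smul_eq_mul]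
  split_ifs <;> ring

theorem Lin_coord {w : Sp (n + 2) × Sp (n + 2) × Sp (n + 2)} (h : Lin (e0 n) w = 0)
    (i : Fin (n + 2)) :
    (i = 0 ∧ 8 * w.1 i - 2 * w.2.1 i - 2 * w.2.2 i = 0 ∧
      (17 / 4) * w.2.2 i - 2 * w.1 i - (1 / 4) * w.2.1 i = 0) ∨
    (2 * w.1 i + w.2.1 i + w.2.2 i = 0 ∧ (7 / 8) * w.2.2 i + w.1 i + (1 / 8) * w.2.1 i = 0) := by
  have h1 := Lin_fst_coord w i
  have h2 := Lin_snd_coord w i
  rw [h] at h1 h2
  by_cases hi : i = 0
  · left
    rw [if_pos hi] at h1 h2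
    simp only [Prod.fst_zero, Prod.snd_zero, PiLp.zero_apply] at h1 h2
    exact ⟨hi, h1.symm, h2.symm⟩
  · right
    rw [if_neg hi] at h1 h2
    simp only [Prod.fst_zero, Prod.snd_zero, PiLp.zero_apply] at h1 h2
    exact ⟨h1.symm, h2.symm⟩

theorem Lin_inj1 {w : Sp (n + 2) × Sp (n + 2) × Sp (n + 2)} (h : Lin (e0 n) w = 0)
    (h1 : w.1 = 0) : w = 0 := by
  have a1 : ∀ i, w.1 i = 0 := fun i => by rw [h1]; rfl
  have a2 : ∀ i, w.2.1 i = 0 ∧ w.2.2 i = 0 := fun i => by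
    have b := a1 i
    rcases Lin_coord h i with ⟨_, h2, h3⟩ | ⟨h2, h3⟩ <;> constructor <;> linarith
  ext i
  · exact a1 i
  · exact (a2 i).1
  · exact (a2 i).2

theorem Lin_inj2 {w : Sp (n + 2) × Sp (n + 2) × Sp (n + 2)} (h : Lin (e0 n) w = 0)
    (h1 : w.2.1 = 0) : w = 0 := by
  have a1 : ∀ i, w.2.1 i = 0 := fun i => by rw [h1]; rfl
  have a2 : ∀ i, w.1 i = 0 ∧ w.2.2 i = 0 := fun i => by
    have b := a1 i
    rcases Lin_coord h i with ⟨_, h2, h3⟩ | ⟨h2, h3⟩ <;> constructor <;> linarith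
  ext i
  · exact (a2 i).1
  · exact a1 i
  · exact (a2 i).2

theorem Lin_inj3 {w : Sp (n + 2) × Sp (n + 2) × Sp (n + 2)} (h : Lin (e0 n) w = 0)
    (h1 : w.2.2 = 0) : w = 0 := by
  have a1 : ∀ i, w.2.2 i = 0 := fun i => by rw [h1]; rfl
  have a2 : ∀ i, w.1 i = 0 ∧ w.2.1 i = 0 := fun i => by
    have b := a1 i
    rcases Lin_coord h i with ⟨_, h2, h3⟩ | ⟨h2, h3⟩ <;> constructor <;> linarith
  ext i
  · exact (a2 i).1
  · exact (a2 i).2
  · exact a1 i

theorem Lin_pos (a b : Sp (n + 2)) :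
    (1 / 4 : ℝ) * (‖a‖ ^ 2 + ‖b‖ ^ 2) ≤
      ⟪(Lin (e0 n) (a, 0, b)).1, a⟫ + ⟪(Lin (e0 n) (a, 0, b)).2, b⟫ := by
  rw [EuclideanSpace.norm_sq_eq, EuclideanSpace.norm_sq_eq, PiLp.inner_apply, PiLp.inner_apply,
    ← Finset.sum_add_distrib, ← Finset.sum_add_distrib, Finset.mul_sum]
  apply Finset.sum_le_sum
  intro i _
  rw [Lin_fst_coord, Lin_snd_coord]
  simp only [Real.norm_eq_abs, sq_abs, PiLp.zero_apply, RCLike.inner_apply, conj_trivial]
  by_cases hi : i = 0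
  · rw [if_pos hi, if_pos hi]
    nlinarith [sq_nonneg (a i - b i), sq_nonneg (a i), sq_nonneg (b i), sq_nonneg (2 * a i - b i)]
  · rw [if_neg hi, if_neg hi]
    nlinarith [sq_nonneg (a i + b i), sq_nonneg (a i), sq_nonneg (b i), sq_nonneg (7 * a i + 4 * b i)]

end Coord

end Vale.Agent.P121
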