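import Vale.Agent.P121.Assembly
import Vale.Agent.P121.Defs

/-!
Final assembly of the counterexample.
-/

open Set Metric Filter Topology MeasureTheory
open scoped RealInnerProductSpace ENNReal

namespace Vale.Agent.P121

variable {n : ℕ}

theorem measurable_coulombCost : Measurable (coulombCost (d := n + 2)) := by
  unfold coulombCost
  have h1 : Measurable (fun p : Sp (n + 2) × Sp (n + 2) × Sp (n + 2) => p.1) := measurable_fst
  have h2 : Measurable (fun p : Sp (n + 2) × Sp (n + 2) × Sp (n + 2) => p.2.1) :=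
    measurable_fst.comp measurable_snd
  have h3 : Measurable (fun p : Sp (n + 2) × Sp (n + 2) × Sp (n + 2) => p.2.2) :=
    measurable_snd.comp measurable_snd
  exact (((h1.edist h2).inv).add ((h1.edist h3).inv)).add ((h2.edist h3).inv)

theorem coulombCost_sym (x y z : Sp (n + 2)) :
    coulombCost (y, z, x) = coulombCost (x, y, z) := by
  unfold coulombCost
  rw [edist_comm y x, edist_comm z x]
  ring

theorem edist_inv_eq {p q : Sp (n + 2)} (h : p ≠ q) :
    (edist p q)⁻¹ = ENNReal.ofReal (‖p - q‖⁻¹) := by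
  have h0 : 0 < ‖p - q‖ := norm_pos_iff.mpr (sub_ne_zero.mpr h)
  rw [edist_dist, dist_eq_norm, ENNReal.ofReal_inv_of_pos h0]

theorem coulombCost_eq {p q r : Sp (n + 2)} (h1 : p ≠ q) (h2 : p ≠ r) (h3 : q ≠ r) :
    coulombCost (p, q, r) = ENNReal.ofReal (cR p q r) := by
  unfold coulombCost cR
  simp only
  rw [edist_inv_eq h1, edist_inv_eq h2, edist_inv_eq h3, ENNReal.ofReal_add (by positivity)
    (by positivity), ENNReal.ofReal_add (by positivity) (by positivity)]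

theorem coulombCost_top {p q r : Sp (n + 2)} (h : p = q ∨ p = r ∨ q = r) :
    coulombCost (p, q, r) = ∞ := by
  unfold coulombCost
  rcases h with h | h | h <;> subst h <;> simp

namespace LocalData

variable (D : LocalData n)

/-- the union of the five clusters -/
def K : Set (Sp (n + 2)) := ⋃ i, D.Kset i

theorem mKset (i : Fin 5) : MeasurableSet (D.Kset i) := by
  fin_cases i
  · exact D.mS
  · exact D.mS.image_of_measurable_injOn D.mF D.iF
  · exact D.mS.image_of_measurable_injOn D.mG D.iG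
  · exact D.mS.image_of_measurable_injOn D.mF' D.iF'
  · exact D.mS.image_of_measurable_injOn D.mG' D.iG'

theorem mK : MeasurableSet D.K := MeasurableSet.iUnion D.mKset

/-- the potential with values in `[0, ∞]` -/
noncomputable def u (p : Sp (n + 2)) : ℝ≥0∞ := ENNReal.ofReal (D.U p)

theorem mu : Measurable D.u := D.measurable_U.ennreal_ofReal

theorem u_sum {p q r : Sp (n + 2)} (hp : p ∈ D.K) (hq : q ∈ D.K) (hr : r ∈ D.K) :
    D.u p + D.u q + D.u r = ENNReal.ofReal (D.U p + D.U q + D.U r) := by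
  obtain ⟨i, hp⟩ := mem_iUnion.mp hp
  obtain ⟨j, hq⟩ := mem_iUnion.mp hq
  obtain ⟨k, hr⟩ := mem_iUnion.mp hr
  have h1 := (D.U_bounds hp).1
  have h2 := (D.U_bounds hq).1
  have h3 := (D.U_bounds hr).1
  unfold u
  rw [ENNReal.ofReal_add (by positivity) h3, ENNReal.ofReal_add h1 h2]

theorem good {p q r : Sp (n + 2)} (hp : p ∈ D.K) (hq : q ∈ D.K) (hr : r ∈ D.K)
    (h1 : p ≠ q) (h2 : p ≠ r) (h3 : q ≠ r) : D.Good p q r := by
  obtain ⟨i, hp⟩ := mem_iUnion.mp hp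
  obtain ⟨j, hq⟩ := mem_iUnion.mp hq
  obtain ⟨k, hr⟩ := mem_iUnion.mp hr
  exact D.good_of_mem hp hq hr h1 h2 h3

theorem hle : ∀ x ∈ D.K, ∀ y ∈ D.K, ∀ z ∈ D.K, D.u x + D.u y + D.u z ≤ coulombCost (x, y, z) := by
  intro x hx y hy z hz
  by_cases h : x = y ∨ x = z ∨ y = z
  · rw [coulombCost_top h]; exact le_top
  · push Not at h
    rw [coulombCost_eq h.1 h.2.1 h.2.2, D.u_sum hx hy hz]
    exact ENNReal.ofReal_le_ofReal (D.good hx hy hz h.1 h.2.1 h.2.2).1

theorem heq : ∀ x ∈ D.K, ∀ y ∈ D.K, ∀ z ∈ D.K,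
    D.u x + D.u y + D.u z = coulombCost (x, y, z) →
      ∃ s ∈ D.S, Perm3 s (D.F s) (D.G s) x y z ∨ Perm3 s (D.F' s) (D.G' s) x y z := by
  intro x hx y hy z hz he
  by_cases h : x = y ∨ x = z ∨ y = z
  · rw [coulombCost_top h, D.u_sum hx hy hz] at he
    exact absurd he ENNReal.ofReal_ne_top
  · push Not at h
    rw [coulombCost_eq h.1 h.2.1 h.2.2, D.u_sum hx hy hz] at he
    have hg := D.good hx hy hz h.1 h.2.1 h.2.2
    refine hg.2 ?_
    have hsum : 0 ≤ D.U x + D.U y + D.U z := by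
      obtain ⟨i, hx⟩ := mem_iUnion.mp hx
      obtain ⟨j, hy⟩ := mem_iUnion.mp hy
      obtain ⟨k, hz⟩ := mem_iUnion.mp hz
      have h1 := (D.U_bounds hx).1
      have h2 := (D.U_bounds hy).1
      have h3 := (D.U_bounds hz).1
      positivity
    have hc : 0 ≤ cR x y z := by unfold cR; positivity
    exact (ENNReal.ofReal_eq_ofReal_iff hsum hc).mp he

theorem mem_K0 {s : Sp (n + 2)} (hs : s ∈ D.S) : s ∈ D.K := mem_iUnion.mpr ⟨0, hs⟩
theorem mem_K1 {s : Sp (n + 2)} (hs : s ∈ D.S) : D.F s ∈ D.K := mem_iUnion.mpr ⟨1, ⟨s, hs, rfl⟩⟩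
theorem mem_K2 {s : Sp (n + 2)} (hs : s ∈ D.S) : D.G s ∈ D.K := mem_iUnion.mpr ⟨2, ⟨s, hs, rfl⟩⟩
theorem mem_K3 {s : Sp (n + 2)} (hs : s ∈ D.S) : D.F' s ∈ D.K := mem_iUnion.mpr ⟨3, ⟨s, hs, rfl⟩⟩
theorem mem_K4 {s : Sp (n + 2)} (hs : s ∈ D.S) : D.G' s ∈ D.K := mem_iUnion.mpr ⟨4, ⟨s, hs, rfl⟩⟩

theorem l0 : ∀ s ∈ D.S, lab s = 0 := fun _ hs => lab_eq (D.near (i := 0) hs)
theorem l1 : ∀ s ∈ D.S, lab (D.F s) = 1 := fun s hs => lab_eq (D.near (i := 1) ⟨s, hs, rfl⟩)
theorem l2 : ∀ s ∈ D.S, lab (D.G s) = 2 := fun s hs => lab_eq (D.near (i := 2) ⟨s, hs, rfl⟩)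
theorem l3 : ∀ s ∈ D.S, lab (D.F' s) = 3 := fun s hs => lab_eq (D.near (i := 3) ⟨s, hs, rfl⟩)
theorem l4 : ∀ s ∈ D.S, lab (D.G' s) = 4 := fun s hs => lab_eq (D.near (i := 4) ⟨s, hs, rfl⟩)

theorem ne_of_lab {p q : Sp (n + 2)} {i j : Fin 5} (h1 : lab p = i) (h2 : lab q = j)
    (h : i ≠ j) : p ≠ q := fun h' => h (by rw [← h1, ← h2, h'])

theorem cost1 : ∀ s ∈ D.S, coulombCost (s, D.F s, D.G s) = D.u s + D.u (D.F s) + D.u (D.G s) := by
  intro s hs
  rw [D.u_sum (D.mem_K0 hs) (D.mem_K1 hs) (D.mem_K2 hs),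
    coulombCost_eq (ne_of_lab (D.l0 s hs) (D.l1 s hs) (by decide))
      (ne_of_lab (D.l0 s hs) (D.l2 s hs) (by decide))
      (ne_of_lab (D.l1 s hs) (D.l2 s hs) (by decide)), D.U_S hs, D.U_F hs, D.U_G hs]
  congr 1
  unfold vY
  ring

theorem cost2 : ∀ s ∈ D.S,
    coulombCost (s, D.F' s, D.G' s) = D.u s + D.u (D.F' s) + D.u (D.G' s) := by
  intro s hs
  rw [D.u_sum (D.mem_K0 hs) (D.mem_K3 hs) (D.mem_K4 hs),
    coulombCost_eq (ne_of_lab (D.l0 s hs) (D.l3 s hs) (by decide))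
      (ne_of_lab (D.l0 s hs) (D.l4 s hs) (by decide))
      (ne_of_lab (D.l3 s hs) (D.l4 s hs) (by decide)), D.U_S hs, D.U_F' hs, D.U_G' hs]
  congr 1
  rw [← cR_sg]
  unfold F' G' vY
  rw [sg_sg, sg_sg, uS_sg]
  ring

/-- the uniform measure on the inner ball, of mass `1/6` -/
noncomputable def ν : Measure (Sp (n + 2)) := (6 * volume D.S)⁻¹ • volume.restrict D.S

theorem volS_pos : volume D.S ≠ 0 := (measure_ball_pos volume 0 D.ρ_pos).ne'
theorem volS_fin : volume D.S ≠ ∞ := measure_ball_lt_top.ne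

theorem ν_compl : D.ν D.Sᶜ = 0 := by
  unfold ν
  rw [Measure.smul_apply, Measure.restrict_apply D.mS.compl]
  simp

theorem ν_univ : 6 * D.ν univ = 1 := by
  unfold ν
  rw [Measure.smul_apply, Measure.restrict_apply_univ, smul_eq_mul,
    ENNReal.mul_inv (Or.inl (by norm_num)) (Or.inl (by norm_num)), ← mul_assoc, ← mul_assoc,
    ENNReal.mul_inv_cancel (by norm_num) (by norm_num), one_mul,
    ENNReal.inv_mul_cancel D.volS_pos D.volS_fin]

theorem ν_ac : D.ν ≪ volume := by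
  unfold ν
  exact (Measure.absolutelyContinuous_of_le Measure.restrict_le_self).smul_left _

theorem ν_null {f : Sp (n + 2) → Sp (n + 2)} (mf : Measurable f)
    (h : ∀ x ∈ D.S, ∀ y ∈ D.S, ‖x - y‖ ≤ D.C * ‖f x - f y‖) : D.ν.map f ≪ volume := by
  refine Measure.AbsolutelyContinuous.mk fun N mN hN => ?_
  rw [Measure.map_apply mf mN]
  unfold ν
  rw [Measure.smul_apply, Measure.restrict_apply (mf mN), null_preimage h hN]
  simp

/-- the marginal -/
noncomputable def μ : Measure (Sp (n + 2)) :=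
  D.ν + D.ν + D.ν.map D.F + D.ν.map D.G + D.ν.map D.F' + D.ν.map D.G'

theorem μ_of_subset {A : Set (Sp (n + 2))} (mA : MeasurableSet A) (h : A ∩ D.K = ∅) :
    D.μ A = 0 := by
  have hn : ∀ x ∈ D.K, x ∉ A := fun x hx hxA => by
    have : x ∈ A ∩ D.K := ⟨hxA, hx⟩
    rw [h] at this
    exact this
  have key : ∀ f : Sp (n + 2) → Sp (n + 2), (∀ s ∈ D.S, f s ∈ D.K) → D.ν (f ⁻¹' A) = 0 := by
    intro f hf
    refine measure_mono_null ?_ D.ν_compl
    intro x hx hxS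
    exact hn _ (hf x hxS) hx
  unfold μ
  simp only [Measure.add_apply]
  rw [Measure.map_apply D.mF mA, Measure.map_apply D.mG mA, Measure.map_apply D.mF' mA,
    Measure.map_apply D.mG' mA, key D.F (fun s hs => D.mem_K1 hs),
    key D.G (fun s hs => D.mem_K2 hs), key D.F' (fun s hs => D.mem_K3 hs),
    key D.G' (fun s hs => D.mem_K4 hs), show D.ν A = 0 from key id (fun s hs => D.mem_K0 hs)]
  simp

theorem μ_compl : D.μ D.Kᶜ = 0 := D.μ_of_subset D.mK.compl (by simp)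

theorem μ_univ : D.μ univ = 1 := by
  unfold μ
  simp only [Measure.add_apply]
  rw [Measure.map_apply D.mF MeasurableSet.univ, Measure.map_apply D.mG MeasurableSet.univ,
    Measure.map_apply D.mF' MeasurableSet.univ, Measure.map_apply D.mG' MeasurableSet.univ]
  simp only [preimage_univ]
  rw [← D.ν_univ]
  ring

theorem μ_ac : D.μ ≪ volume := by
  unfold μ
  refine Measure.AbsolutelyContinuous.mk fun N mN hN => ?_
  simp only [Measure.add_apply]
  rw [D.ν_ac hN, D.ν_null D.mF D.lF hN, D.ν_null D.mG D.lG hN, D.ν_null D.mF' D.lF' hN,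
    D.ν_null D.mG' D.lG' hN]
  simp

theorem u_int : ∫⁻ x, D.u x ∂D.μ ≤ 2 := by
  have k1 : ∀ᵐ x ∂D.μ, x ∈ D.K := by
    have := D.μ_compl
    rwa [← mem_ae_iff] at this
  calc ∫⁻ x, D.u x ∂D.μ ≤ ∫⁻ _, 2 ∂D.μ := by
        apply lintegral_mono_ae
        filter_upwards [k1] with x hx
        obtain ⟨i, hi⟩ := mem_iUnion.mp hx
        have h := (D.U_bounds hi).2
        have h2 : (ubn i : ℝ) / 100 ≤ 2 := by
          fin_cases i <;> norm_num [ubn]
        unfold u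
        calc ENNReal.ofReal (D.U x) ≤ ENNReal.ofReal 2 := ENNReal.ofReal_le_ofReal (h.trans h2)
          _ = 2 := by simp
    _ = 2 := by rw [lintegral_const, D.μ_univ, mul_one]

end LocalData

/-- the general theorem, in dimension `n + 2` -/
theorem exists_no_monge (n : ℕ) : ∃ μ : Measure (EuclideanSpace ℝ (Fin (n + 2))),
    IsProbabilityMeasure μ ∧ μ ≪ volume ∧ μ (closedBall 0 2)ᶜ = 0 ∧ kantorovichValue μ < ∞ ∧
      ∀ T₂ T₃, ¬ IsOptimalMongePlan μ T₂ T₃ := by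
  obtain ⟨D⟩ := exists_localData n
  have hplan := exists_plan (coulombCost (d := n + 2)) measurable_coulombCost coulombCost_sym D.ν
    D.S D.ν_compl D.ν_univ D.F D.G D.F' D.G' D.mF D.mG D.mF' D.mG' D.μ rfl D.u D.mu D.cost1 D.cost2
  obtain ⟨π, h1, h2, h3, h4, h5⟩ := hplan
  have hval : kantorovichValue D.μ ≤ 3 * ∫⁻ x, D.u x ∂D.μ := by
    rw [← h5]
    exact iInf₂_le π ⟨h1, h2, h3, h4⟩
  have hfin : ∫⁻ x, D.u x ∂D.μ ≠ ∞ := ne_top_of_le_ne_top (by norm_num) D.u_int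
  have hνfin : D.ν univ ≠ ∞ := fun h => by
    have := D.ν_univ
    rw [h] at this
    simp at this
  have hνpos : D.ν univ ≠ 0 := fun h => by
    have := D.ν_univ
    rw [h] at this
    simp at this
  refine ⟨D.μ, ⟨D.μ_univ⟩, D.μ_ac, ?_, ?_, ?_⟩
  · refine D.μ_of_subset measurableSet_closedBall.compl ?_
    ext x
    simp only [mem_inter_iff, mem_compl_iff, mem_empty_iff_false, iff_false, not_and]
    intro hx hxK
    apply hx
    obtain ⟨i, hi⟩ := mem_iUnion.mp hxK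
    have h := D.near hi
    rw [mem_closedBall_zero_iff]
    have h2 : ‖posn n i‖ ≤ 1 := by
      have := norm_e0 (n := n)
      have := norm_e1 (n := n)
      fin_cases i <;> simp [posn, *]
    calc ‖x‖ = ‖(x - posn n i) + posn n i‖ := by congr 1; abel
      _ ≤ ‖x - posn n i‖ + ‖posn n i‖ := norm_add_le _ _
      _ ≤ 2 := by linarith
  · refine lt_of_le_of_lt hval ?_
    exact ENNReal.mul_lt_top (by norm_num) (lt_top_iff_ne_top.mpr hfin)
  · rintro T₂ T₃ ⟨hT₂, hT₃, mT₂, mT₃, hcost⟩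
    exact monge_false (coulombCost (d := n + 2)) measurable_coulombCost D.ν D.S D.mS D.ν_compl
      hνfin hνpos D.F D.G D.F' D.G' D.mF D.mG D.mF' D.mG' D.iF D.iG D.iF' D.iG'
      LocalData.lab D.l0 D.l1 D.l2 D.l3 D.l4 D.μ rfl D.u D.mu hfin D.K D.μ_compl D.mK D.hle D.heq
      T₂ T₃ hT₂ hT₃ mT₂ mT₃ (hcost.trans_le hval)

end Vale.Agent.P121
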