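import Mathlib

/-!
The Coulomb force kernel `k r = r / ‖r‖ ^ 3` and its derivative at multiples of a unit vector.
-/

open scoped RealInnerProductSpace

namespace Vale.Agent.P121

variable {E : Type*} [NormedAddCommGroup E] [InnerProductSpace ℝ E]

/-- the Coulomb field -/
noncomputable def ker (r : E) : E := (‖r‖ ^ 3)⁻¹ • r

theorem hasStrictFDerivAt_norm' {r : E} (hr : r ≠ 0) :
    HasStrictFDerivAt (fun x : E => ‖x‖) (‖r‖⁻¹ • innerSL ℝ r) r := by
  have h := (hasStrictFDerivAt_norm_sq r).sqrt (by simpa using hr)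
  have h2 : (fun x : E => √(‖x‖ ^ 2)) = fun x => ‖x‖ := by
    funext x; exact Real.sqrt_sq (norm_nonneg x)
  rw [h2] at h
  convert h using 1
  rw [Real.sqrt_sq (norm_nonneg r)]
  ext x
  have : ‖r‖ ≠ 0 := norm_ne_zero_iff.mpr hr
  simp
  field_simp

theorem hasStrictFDerivAt_inv_norm {r : E} (hr : r ≠ 0) :
    HasStrictFDerivAt (fun x : E => ‖x‖⁻¹) (-innerSL ℝ (ker r)) r := by
  have hr' : ‖r‖ ≠ 0 := norm_ne_zero_iff.mpr hr
  have h := (hasStrictDerivAt_inv hr').comp_hasStrictFDerivAt r (hasStrictFDerivAt_norm' hr)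
  have h2 : (Inv.inv ∘ fun x : E => ‖x‖) = fun x => ‖x‖⁻¹ := rfl
  rw [h2] at h
  have e0 : (-innerSL ℝ (ker r) : E →L[ℝ] ℝ) = -(‖r‖ ^ 2)⁻¹ • ‖r‖⁻¹ • innerSL ℝ r := by
    refine ContinuousLinearMap.ext fun x => ?_
    have e1 : (-innerSL ℝ (ker r)) x = -((‖r‖ ^ 3)⁻¹ * ⟪r, x⟫) := by
      rw [ker, neg_apply, innerSL_apply_apply, inner_smul_left]
      simp
    have e2 : (-(‖r‖ ^ 2)⁻¹ • ‖r‖⁻¹ • innerSL ℝ r) x = -(‖r‖ ^ 2)⁻¹ * (‖r‖⁻¹ * ⟪r, x⟫) := by
      simp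
    rw [e1, e2]
    field_simp
  rw [e0]
  exact h

theorem hasStrictFDerivAt_ker {r : E} (hr : r ≠ 0) :
    HasStrictFDerivAt (ker : E → E)
      ((‖r‖ ^ 3)⁻¹ • ContinuousLinearMap.id ℝ E
        + (-(3 * (‖r‖ ^ 5)⁻¹) • innerSL ℝ r).smulRight r) r := by
  have hr' : ‖r‖ ≠ 0 := norm_ne_zero_iff.mpr hr
  have h1 := (hasStrictFDerivAt_norm' hr).pow 3
  have h2 := (hasStrictDerivAt_inv (pow_ne_zero 3 hr')).comp_hasStrictFDerivAt r h1
  have h3 := h2.smul (hasStrictFDerivAt_id r)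
  have h4 : ((Inv.inv ∘ fun x : E => ‖x‖ ^ 3) • (id : E → E)) = (ker : E → E) := by
    funext x; simp [ker]
  rw [h4] at h3
  convert h3 using 1
  ext x
  simp only [add_apply, smul_apply,
    ContinuousLinearMap.id_apply, ContinuousLinearMap.smulRight_apply, Function.comp, id]
  congr 2
  simp
  field_simp

/-- the reflection-like map `h ↦ h - 3 ⟪e, h⟫ e` -/
noncomputable def D1 (e : E) : E →L[ℝ] E :=
  ContinuousLinearMap.id ℝ E - (3 : ℝ) • (innerSL ℝ e).smulRight e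

theorem D1_apply (e h : E) : D1 e h = h - (3 * ⟪e, h⟫) • e := by
  simp [D1, smul_smul]

theorem ker_smul {e : E} (he : ‖e‖ = 1) (c : ℝ) : ker (c • e) = ((|c| ^ 3)⁻¹ * c) • e := by
  simp [ker, norm_smul, he, smul_smul]

theorem hasStrictFDerivAt_ker_smul {e : E} (he : ‖e‖ = 1) {c : ℝ} (hc : c ≠ 0) :
    HasStrictFDerivAt (ker : E → E) ((|c| ^ 3)⁻¹ • D1 e) (c • e) := by
  have he0 : e ≠ 0 := by
    intro h; rw [h] at he; simp at he
  have h := hasStrictFDerivAt_ker (smul_ne_zero hc he0)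
  convert h using 1
  ext x
  have habs : |c| ≠ 0 := abs_ne_zero.mpr hc
  have h5 : |c| ^ 5 = |c| ^ 3 * c ^ 2 := by rw [← sq_abs c]; ring
  simp only [add_apply, smul_apply,
    ContinuousLinearMap.id_apply, ContinuousLinearMap.smulRight_apply, D1_apply, norm_smul, he,
    Real.norm_eq_abs, mul_one, innerSL_apply_apply, inner_smul_left, smul_sub, smul_smul]
  rw [sub_eq_add_neg, ← neg_smul]
  congr 2
  rw [h5]
  simp
  field_simp

end Vale.Agent.P121
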