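import Vale.Agent.P121.Field

/-!
Local analysis near the configuration `(0, e, -e)`.
-/

open Set Metric Filter Topology
open scoped RealInnerProductSpace

namespace Vale.Agent.P121

theorem exists_antilip {X Y Z : Type*} [NormedAddCommGroup X] [NormedSpace ℝ X]
    [FiniteDimensional ℝ X] [NormedAddCommGroup Y] [NormedSpace ℝ Y] [NormedAddCommGroup Z]
    [NormedSpace ℝ Z] {f : X → Y} {L : X →L[ℝ] Y} {p : X} (hf : HasStrictFDerivAt f L p)
    (π : X →L[ℝ] Z) (hinj : ∀ w, L w = 0 → π w = 0 → w = 0) :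
    ∃ C > 0, ∃ s ∈ 𝓝 p, ∀ w ∈ s, ∀ w' ∈ s, f w = f w' → ‖w - w'‖ ≤ C * ‖π w - π w'‖ := by
  obtain ⟨K, hK, hA⟩ := LinearMap.exists_antilipschitzWith (L.prod π).toLinearMap (by
    rw [LinearMap.ker_eq_bot']
    intro w hw
    have h1 : (L w, π w) = (0 : Y × Z) := hw
    exact hinj w (by simpa using congrArg Prod.fst h1) (by simpa using congrArg Prod.snd h1))
  have hK0 : (0 : ℝ) < K := hK
  have hc : (0 : NNReal) < (2 * K)⁻¹ := by positivity
  obtain ⟨s, hs, happ⟩ := hf.approximates_deriv_on_nhds (c := (2 * K)⁻¹) (Or.inr hc)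
  refine ⟨2 * K, by positivity, s, hs, fun w hw w' hw' hww => ?_⟩
  have h1 := happ w hw w' hw'
  rw [hww, sub_self, zero_sub, norm_neg] at h1
  have h2 := hA.le_mul_dist w w'
  rw [dist_eq_norm, dist_eq_norm] at h2
  have h3 : (L.prod π).toLinearMap w - (L.prod π).toLinearMap w' = (L (w - w'), π w - π w') := by
    rw [map_sub]; rfl
  rw [h3] at h2
  have h4 : ‖(L (w - w'), π w - π w')‖ ≤ ‖L (w - w')‖ + ‖π w - π w'‖ := by
    rw [Prod.norm_def]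
    exact max_le (by simp) (by simp)
  have h5 : (K : ℝ) * ‖L (w - w')‖ ≤ 1 / 2 * ‖w - w'‖ := by
    calc (K : ℝ) * ‖L (w - w')‖ ≤ K * (((2 * K)⁻¹ : NNReal) * ‖w - w'‖) := by gcongr
      _ = 1 / 2 * ‖w - w'‖ := by
        push_cast
        field_simp
  have h6 : ‖w - w'‖ ≤ K * ‖L (w - w')‖ + K * ‖π w - π w'‖ := by
    calc ‖w - w'‖ ≤ K * ‖(L (w - w'), π w - π w')‖ := h2
      _ ≤ K * (‖L (w - w')‖ + ‖π w - π w'‖) := by gcongr
      _ = _ := by ring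
  linarith

variable {n : ℕ}

/-- strong monotonicity of the gradient in `(x, z)` -/
theorem exists_mono : ∃ s ∈ 𝓝 ((0, e0 n, -e0 n) : Sp (n + 2) × Sp (n + 2) × Sp (n + 2)),
    ∀ w ∈ s, ∀ w' ∈ s, w.2.1 = w'.2.1 →
    (1 / 8 : ℝ) * (‖w.1 - w'.1‖ ^ 2 + ‖w.2.2 - w'.2.2‖ ^ 2) ≤
      ⟪(Phi (e0 n) w).1 - (Phi (e0 n) w').1, w.1 - w'.1⟫
        + ⟪(Phi (e0 n) w).2 - (Phi (e0 n) w').2, w.2.2 - w'.2.2⟫ := by
  have hc : (0 : NNReal) < 1 / 16 := by positivity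
  obtain ⟨s, hs, happ⟩ :=
    (hasStrictFDerivAt_Phi (norm_e0 (n := n))).approximates_deriv_on_nhds (c := 1 / 16) (Or.inr hc)
  refine ⟨s, hs, fun w hw w' hw' hy => ?_⟩
  have h1 := happ w hw w' hw'
  set a := w.1 - w'.1 with ha
  set b := w.2.2 - w'.2.2 with hb
  have hww : w - w' = (a, 0, b) := by
    ext1
    · rfl
    · ext1
      · simp [hy]
      · rfl
  have hp := Lin_pos (n := n) a b
  rw [hww] at h1
  have hnorm : ‖((a, 0, b) : Sp (n + 2) × Sp (n + 2) × Sp (n + 2))‖ = max ‖a‖ ‖b‖ := by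
    simp [Prod.norm_def]
  rw [hnorm] at h1
  set L := Lin (e0 n) (a, 0, b) with hL
  have h2 : ‖(Phi (e0 n) w).1 - (Phi (e0 n) w').1 - L.1‖ ≤ (1 / 16 : ℝ) * max ‖a‖ ‖b‖ := by
    refine le_trans (norm_fst_le (Phi (e0 n) w - Phi (e0 n) w' - L)) ?_
    simpa using h1
  have h3 : ‖(Phi (e0 n) w).2 - (Phi (e0 n) w').2 - L.2‖ ≤ (1 / 16 : ℝ) * max ‖a‖ ‖b‖ := by
    refine le_trans (norm_snd_le (Phi (e0 n) w - Phi (e0 n) w' - L)) ?_
    simpa using h1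
  have h4 : ⟪(Phi (e0 n) w).1 - (Phi (e0 n) w').1, a⟫ = ⟪L.1, a⟫
      + ⟪(Phi (e0 n) w).1 - (Phi (e0 n) w').1 - L.1, a⟫ := by
    rw [← inner_add_left]; congr 1; abel
  have h5 : ⟪(Phi (e0 n) w).2 - (Phi (e0 n) w').2, b⟫ = ⟪L.2, b⟫
      + ⟪(Phi (e0 n) w).2 - (Phi (e0 n) w').2 - L.2, b⟫ := by
    rw [← inner_add_left]; congr 1; abel
  have h6 := abs_real_inner_le_norm ((Phi (e0 n) w).1 - (Phi (e0 n) w').1 - L.1) a
  have h7 := abs_real_inner_le_norm ((Phi (e0 n) w).2 - (Phi (e0 n) w').2 - L.2) b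
  have h6' := (abs_le.mp h6).1
  have h7' := (abs_le.mp h7).1
  have na := norm_nonneg a
  have nb := norm_nonneg b
  have hm : 0 ≤ max ‖a‖ ‖b‖ := le_max_of_le_left na
  have h8 : ‖(Phi (e0 n) w).1 - (Phi (e0 n) w').1 - L.1‖ * ‖a‖ ≤
      (1 / 16 : ℝ) * max ‖a‖ ‖b‖ * ‖a‖ := by gcongr
  have h9 : ‖(Phi (e0 n) w).2 - (Phi (e0 n) w').2 - L.2‖ * ‖b‖ ≤
      (1 / 16 : ℝ) * max ‖a‖ ‖b‖ * ‖b‖ := by gcongr
  have h10 : max ‖a‖ ‖b‖ * ‖a‖ + max ‖a‖ ‖b‖ * ‖b‖ ≤ 2 * (‖a‖ ^ 2 + ‖b‖ ^ 2) := by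
    rcases le_total ‖a‖ ‖b‖ with h | h
    · rw [max_eq_right h]; nlinarith
    · rw [max_eq_left h]; nlinarith
  rw [h4, h5]
  nlinarith

/-- potential on the inner ball -/
noncomputable def uS {E : Type*} [NormedAddCommGroup E] [InnerProductSpace ℝ E] (x : E) : ℝ :=
  3 / 2 - 2 * ‖x‖ ^ 2

/-- potential near `-e` -/
noncomputable def uZ {E : Type*} [NormedAddCommGroup E] [InnerProductSpace ℝ E] (e z : E) : ℝ :=
  1 / 2 + 5 / 4 * ⟪e, z + e⟫ - ‖z + e‖ ^ 2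

/-- real Coulomb energy of three points -/
noncomputable def cR {E : Type*} [NormedAddCommGroup E] [InnerProductSpace ℝ E] (x y z : E) : ℝ :=
  ‖x - y‖⁻¹ + ‖x - z‖⁻¹ + ‖y - z‖⁻¹

section Deriv

variable {E : Type*} [NormedAddCommGroup E] [InnerProductSpace ℝ E]

theorem ker_neg (r : E) : ker (-r) = -ker r := by simp [ker]

theorem hasDerivAt_inv_norm_line (p a : E) (t : ℝ) (h : p + t • a ≠ 0) :
    HasDerivAt (fun t : ℝ => ‖p + t • a‖⁻¹) (-⟪ker (p + t • a), a⟫) t := by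
  have h1 : HasDerivAt (fun t : ℝ => p + t • a) a t := by
    simpa using ((hasDerivAt_id t).smul_const a).const_add p
  have h2 : HasDerivAt (fun t : ℝ => ‖p + t • a‖⁻¹) ((-innerSL ℝ (ker (p + t • a))) a) t :=
    HasFDerivAt.comp_hasDerivAt (l := fun x : E => ‖x‖⁻¹) t
      (hasStrictFDerivAt_inv_norm h).hasFDerivAt h1
  have h3 : (-innerSL ℝ (ker (p + t • a))) a = -⟪ker (p + t • a), a⟫ := by
    rw [neg_apply, innerSL_apply_apply]
  rw [h3] at h2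
  exact h2

theorem hasDerivAt_norm_sq_line (p a : E) (t : ℝ) :
    HasDerivAt (fun t : ℝ => ‖p + t • a‖ ^ 2) (2 * ⟪p + t • a, a⟫) t := by
  have h1 : HasDerivAt (fun t : ℝ => p + t • a) a t := by
    simpa using ((hasDerivAt_id t).smul_const a).const_add p
  have h2 : HasDerivAt (fun t : ℝ => ‖p + t • a‖ ^ 2) ((2 • innerSL ℝ (p + t • a)) a) t :=
    HasFDerivAt.comp_hasDerivAt (l := fun x : E => ‖x‖ ^ 2) t
      (hasStrictFDerivAt_norm_sq (p + t • a)).hasFDerivAt h1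
  have h3 : (2 • innerSL ℝ (p + t • a)) a = 2 * ⟪p + t • a, a⟫ := by
    rw [smul_apply, innerSL_apply_apply, nsmul_eq_mul]
    norm_num
  rw [h3] at h2
  exact h2

theorem hasDerivAt_line (e x y z a b : E) (t : ℝ) (h1 : x + t • a - y ≠ 0)
    (h2 : x + t • a - (z + t • b) ≠ 0) (h3 : y - (z + t • b) ≠ 0) :
    HasDerivAt (fun t : ℝ => cR (x + t • a) y (z + t • b) - uS (x + t • a) - uZ e (z + t • b))
      (⟪(Phi e (x + t • a, y, z + t • b)).1, a⟫ + ⟪(Phi e (x + t • a, y, z + t • b)).2, b⟫) t := by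
  have d1 : HasDerivAt (fun t : ℝ => ‖x + t • a - y‖⁻¹) (-⟪ker (x + t • a - y), a⟫) t := by
    have e1 : ∀ s : ℝ, x + s • a - y = (x - y) + s • a := fun s => by abel
    simp only [e1] at h1 ⊢
    exact hasDerivAt_inv_norm_line _ _ _ h1
  have d2 : HasDerivAt (fun t : ℝ => ‖x + t • a - (z + t • b)‖⁻¹)
      (-⟪ker (x + t • a - (z + t • b)), a - b⟫) t := by
    have e1 : ∀ s : ℝ, x + s • a - (z + s • b) = (x - z) + s • (a - b) := fun s => by
      rw [smul_sub]; abel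
    simp only [e1] at h2 ⊢
    exact hasDerivAt_inv_norm_line _ _ _ h2
  have d3 : HasDerivAt (fun t : ℝ => ‖y - (z + t • b)‖⁻¹)
      (-⟪ker (y - (z + t • b)), -b⟫) t := by
    have e1 : ∀ s : ℝ, y - (z + s • b) = (y - z) + s • (-b) := fun s => by
      rw [smul_neg]; abel
    simp only [e1] at h3 ⊢
    exact hasDerivAt_inv_norm_line _ _ _ h3
  have d4 : HasDerivAt (fun t : ℝ => uS (x + t • a)) (-(2 * (2 * ⟪x + t • a, a⟫))) t := by
    exact ((hasDerivAt_norm_sq_line x a t).const_mul 2).const_sub (3 / 2)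
  have d5 : HasDerivAt (fun t : ℝ => uZ e (z + t • b))
      (5 / 4 * ⟪e, b⟫ - 2 * ⟪z + t • b + e, b⟫) t := by
    have e1 : ∀ s : ℝ, z + s • b + e = (z + e) + s • b := fun s => by abel
    have e2 : ∀ s : ℝ, ⟪e, (z + e) + s • b⟫ = ⟪e, z + e⟫ + s * ⟪e, b⟫ := fun s => by
      rw [inner_add_right, inner_smul_right]
    have d6 : HasDerivAt (fun s : ℝ => 1 / 2 + 5 / 4 * (⟪e, z + e⟫ + s * ⟪e, b⟫))
        (5 / 4 * ⟪e, b⟫) t := by
      have := ((((hasDerivAt_id t).mul_const ⟪e, b⟫).const_add ⟪e, z + e⟫).const_mul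
        (5 / 4)).const_add (1 / 2 : ℝ)
      simpa using this
    have d7 := hasDerivAt_norm_sq_line (z + e) b t
    simp only [uZ, e1, e2]
    exact d6.sub d7
  have d := (((d1.add d2).add d3).sub d4).sub d5
  have hd : HasDerivAt (fun t : ℝ => cR (x + t • a) y (z + t • b) - uS (x + t • a)
      - uZ e (z + t • b)) _ t := d
  convert hd using 1
  simp only [Phi]
  have k1 : ker (z + t • b - (x + t • a)) = -ker (x + t • a - (z + t • b)) := by
    rw [← ker_neg]; congr 1; abel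
  have k2 : ker (z + t • b - y) = -ker (y - (z + t • b)) := by
    rw [← ker_neg]; congr 1; abel
  rw [k1, k2]
  simp only [inner_sub_left, inner_sub_right, inner_smul_left, inner_neg_left, inner_neg_right,
    conj_trivial]
  ring

end Deriv

/-- strict minimality -/
theorem exists_strict_min : ∃ δ > 0, ∀ x ∈ ball (0 : Sp (n + 2)) δ, ∀ y ∈ ball (e0 n) δ,
    ∀ z ∈ ball (-e0 n) δ, Phi (e0 n) (x, y, z) = 0 →
    ∀ x' ∈ ball (0 : Sp (n + 2)) δ, ∀ z' ∈ ball (-e0 n) δ, (x', z') ≠ (x, z) →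
      cR x y z - uS x - uZ (e0 n) z < cR x' y z' - uS x' - uZ (e0 n) z' := by
  obtain ⟨s, hs, hmono⟩ := exists_mono (n := n)
  obtain ⟨ε, hε, hball⟩ := Metric.mem_nhds_iff.mp hs
  refine ⟨min ε (1 / 4), by positivity, ?_⟩
  intro x hx y hy z hz hPhi x' hx' z' hz' hne
  have hsub : ∀ p : Sp (n + 2), ball p (min ε (1 / 4)) ⊆ ball p ε := fun p =>
    ball_subset_ball (min_le_left _ _)
  have hsub' : ∀ p : Sp (n + 2), ball p (min ε (1 / 4)) ⊆ ball p (1 / 4) := fun p =>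
    ball_subset_ball (min_le_right _ _)
  set a := x' - x with ha
  set b := z' - z with hb
  have hxt : ∀ t ∈ Icc (0 : ℝ) 1, x + t • a ∈ ball (0 : Sp (n + 2)) (min ε (1 / 4)) :=
    fun t ht => (convex_ball _ _).add_smul_sub_mem hx hx' ht
  have hzt : ∀ t ∈ Icc (0 : ℝ) 1, z + t • b ∈ ball (-e0 n) (min ε (1 / 4)) :=
    fun t ht => (convex_ball _ _).add_smul_sub_mem hz hz' ht
  have ne1 : ∀ p ∈ ball (0 : Sp (n + 2)) (1 / 4), ∀ q ∈ ball (e0 n) (1 / 4), p - q ≠ 0 := by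
    intro p hp q hq h
    rw [mem_ball, dist_eq_norm] at hp hq
    rw [sub_eq_zero] at h
    subst h
    have h1 : ‖e0 n‖ ≤ ‖p‖ + ‖p - e0 n‖ := by
      calc ‖e0 n‖ = ‖p - (p - e0 n)‖ := by congr 1; abel
        _ ≤ _ := norm_sub_le _ _
    rw [norm_e0] at h1
    rw [sub_zero] at hp
    linarith
  have ne2 : ∀ p ∈ ball (0 : Sp (n + 2)) (1 / 4), ∀ q ∈ ball (-e0 n) (1 / 4), p - q ≠ 0 := by
    intro p hp q hq h
    rw [mem_ball, dist_eq_norm] at hp hq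
    rw [sub_eq_zero] at h
    subst h
    have h1 : ‖e0 n‖ ≤ ‖p‖ + ‖p - -e0 n‖ := by
      calc ‖e0 n‖ = ‖(p - -e0 n) - p‖ := by congr 1; abel
        _ ≤ ‖p - -e0 n‖ + ‖p‖ := norm_sub_le _ _
        _ = ‖p‖ + ‖p - -e0 n‖ := add_comm _ _
    rw [norm_e0] at h1
    rw [sub_zero] at hp
    linarith
  have ne3 : ∀ p ∈ ball (e0 n) (1 / 4), ∀ q ∈ ball (-e0 n) (1 / 4), p - q ≠ 0 := by
    intro p hp q hq h
    rw [mem_ball, dist_eq_norm] at hp hq
    rw [sub_eq_zero] at h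
    subst h
    have h1 : ‖(2 : ℝ) • e0 n‖ ≤ ‖p - -e0 n‖ + ‖p - e0 n‖ := by
      calc ‖(2 : ℝ) • e0 n‖ = ‖(p - -e0 n) - (p - e0 n)‖ := by congr 1; rw [two_smul]; abel
        _ ≤ _ := norm_sub_le _ _
    rw [norm_smul, norm_e0, Real.norm_eq_abs, abs_of_pos two_pos] at h1
    linarith
  have hder : ∀ t ∈ Icc (0 : ℝ) 1, HasDerivAt
      (fun t : ℝ => cR (x + t • a) y (z + t • b) - uS (x + t • a) - uZ (e0 n) (z + t • b))
      (⟪(Phi (e0 n) (x + t • a, y, z + t • b)).1, a⟫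
        + ⟪(Phi (e0 n) (x + t • a, y, z + t • b)).2, b⟫) t := fun t ht =>
    hasDerivAt_line _ _ _ _ _ _ _ (ne1 _ (hsub' _ (hxt t ht)) _ (hsub' _ hy))
      (ne2 _ (hsub' _ (hxt t ht)) _ (hsub' _ (hzt t ht)))
      (ne3 _ (hsub' _ hy) _ (hsub' _ (hzt t ht)))
  obtain ⟨t, ht, hslope⟩ := exists_hasDerivAt_eq_slope _ _ (zero_lt_one' ℝ)
    (fun t ht => (hder t ht).continuousAt.continuousWithinAt)
    (fun t ht => hder t ⟨ht.1.le, ht.2.le⟩)
  have hmem : ∀ p q r : Sp (n + 2), p ∈ ball (0 : Sp (n + 2)) (min ε (1 / 4)) →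
      q ∈ ball (e0 n) (min ε (1 / 4)) → r ∈ ball (-e0 n) (min ε (1 / 4)) → (p, q, r) ∈ s := by
    intro p q r hp hq hr
    apply hball
    rw [← ball_prod_same, ← ball_prod_same]
    exact ⟨hsub _ hp, hsub _ hq, hsub _ hr⟩
  have hm := hmono (x + t • a, y, z + t • b) (hmem _ _ _ (hxt t ⟨ht.1.le, ht.2.le⟩) hy
    (hzt t ⟨ht.1.le, ht.2.le⟩)) (x, y, z) (hmem _ _ _ hx hy hz) rfl
  rw [hPhi] at hm
  simp only [Prod.fst_zero, Prod.snd_zero, sub_zero, add_sub_cancel_left, norm_smul,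
    inner_smul_right, Real.norm_eq_abs, abs_of_pos ht.1] at hm
  have hpos : 0 < ‖a‖ ^ 2 + ‖b‖ ^ 2 := by
    by_contra hcon
    have h1 : ‖a‖ ^ 2 = 0 := by nlinarith [sq_nonneg ‖a‖, sq_nonneg ‖b‖]
    have h2 : ‖b‖ ^ 2 = 0 := by nlinarith [sq_nonneg ‖a‖, sq_nonneg ‖b‖]
    have h3 : a = 0 := by simpa using h1
    have h4 : b = 0 := by simpa using h2
    apply hne
    rw [Prod.mk.injEq]
    exact ⟨sub_eq_zero.mp h3, sub_eq_zero.mp h4⟩
  have hd : 0 < ⟪(Phi (e0 n) (x + t • a, y, z + t • b)).1, a⟫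
        + ⟪(Phi (e0 n) (x + t • a, y, z + t • b)).2, b⟫ := by
    have h1 : 0 < t * (⟪(Phi (e0 n) (x + t • a, y, z + t • b)).1, a⟫
        + ⟪(Phi (e0 n) (x + t • a, y, z + t • b)).2, b⟫) := by
      have : 0 < t ^ 2 * (‖a‖ ^ 2 + ‖b‖ ^ 2) := mul_pos (pow_pos ht.1 2) hpos
      nlinarith
    exact (pos_iff_pos_of_mul_pos h1).mp ht.1
  rw [hslope] at hd
  simp only [zero_smul, add_zero, one_smul, sub_zero, div_one] at hd
  have hx1 : x + a = x' := by rw [ha]; abel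
  have hz1 : z + b = z' := by rw [hb]; abel
  rw [hx1, hz1] at hd
  linarith

/-- existence of the branch of critical points parametrised by `x` -/
theorem exists_branch : ∃ ρ > 0, ∃ R : Sp (n + 2) → Sp (n + 2) × Sp (n + 2) × Sp (n + 2),
    ContinuousOn R (ball 0 ρ) ∧ R 0 = (0, e0 n, -e0 n) ∧
    ∀ x ∈ ball (0 : Sp (n + 2)) ρ, (R x).1 = x ∧ Phi (e0 n) (R x) = 0 := by
  let X := Sp (n + 2) × Sp (n + 2) × Sp (n + 2)
  let M : X →L[ℝ] X := (P1 : X →L[ℝ] Sp (n + 2)).prod (Lin (e0 n))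
  have hM : Function.Injective M.toLinearMap := by
    rw [← LinearMap.ker_eq_bot, LinearMap.ker_eq_bot']
    intro w hw
    have h1 : (w.1, Lin (e0 n) w) = (0 : X) := hw
    exact Lin_inj1 (by simpa using congrArg Prod.snd h1) (by simpa using congrArg Prod.fst h1)
  let eq1 : X ≃L[ℝ] X := (LinearEquiv.ofInjectiveEndo M.toLinearMap hM).toContinuousLinearEquiv
  have heq : (eq1 : X →L[ℝ] X) = M := by
    refine ContinuousLinearMap.ext fun w => ?_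
    rfl
  let Psi : X → X := fun w => (w.1, Phi (e0 n) w)
  have hPsi : HasStrictFDerivAt Psi (eq1 : X →L[ℝ] X) ((0, e0 n, -e0 n) : X) := by
    rw [heq]
    exact (P1 : X →L[ℝ] Sp (n + 2)).hasStrictFDerivAt.prodMk
      (hasStrictFDerivAt_Phi (norm_e0 (n := n)))
  let φ := hPsi.toOpenPartialHomeomorph Psi
  have hφ : (φ : X → X) = Psi := hPsi.toOpenPartialHomeomorph_coe
  have hsrc : ((0, e0 n, -e0 n) : X) ∈ φ.source := hPsi.mem_toOpenPartialHomeomorph_source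
  have hval : Psi ((0, e0 n, -e0 n) : X) = (0 : X) := by
    show ((0 : Sp (n + 2)), Phi (e0 n) (0, e0 n, -e0 n)) = (0 : X)
    rw [Phi_center (norm_e0 (n := n))]
    rfl
  have htgt : (0 : X) ∈ φ.target := by
    have := hPsi.image_mem_toOpenPartialHomeomorph_target
    rwa [hval] at this
  have hcont : Continuous (fun x : Sp (n + 2) => ((x, 0) : X)) := by fun_prop
  have hopen : IsOpen ((fun x : Sp (n + 2) => ((x, 0) : X)) ⁻¹' φ.target) :=
    φ.open_target.preimage hcont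
  obtain ⟨ρ, hρ, hball⟩ := Metric.isOpen_iff.mp hopen 0 htgt
  refine ⟨ρ, hρ, fun x => φ.symm (x, 0), ?_, ?_, ?_⟩
  · exact φ.continuousOn_symm.comp hcont.continuousOn hball
  · have h := φ.left_inv hsrc
    have h1 : φ ((0, e0 n, -e0 n) : X) = (0 : X) := by rw [hφ, hval]
    rw [h1] at h
    exact h
  · intro x hx
    have h := φ.right_inv (hball hx)
    rw [hφ] at h
    constructor
    · exact congrArg Prod.fst h
    · exact congrArg Prod.snd h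

end Vale.Agent.P121
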