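import Vale.Agent.P121.Data

/-!
The five clusters and the strict inequalities between them.
-/

open Set Metric Filter Topology MeasureTheory
open scoped RealInnerProductSpace

namespace Vale.Agent.P121

variable {n : ℕ}

/-- second basis vector -/
noncomputable def e1 (n : ℕ) : Sp (n + 2) := EuclideanSpace.single 1 1

theorem norm_e1 : ‖e1 n‖ = 1 := by simp [e1]

theorem inner_e0_e1 : ⟪e0 n, e1 n⟫ = 0 := by
  rw [inner_e0]; simp [e1]

/-- the swap of the first two coordinates -/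
noncomputable def sg (n : ℕ) : Sp (n + 2) ≃ₗᵢ[ℝ] Sp (n + 2) :=
  LinearIsometryEquiv.piLpCongrLeft 2 ℝ ℝ (Equiv.swap (0 : Fin (n + 2)) 1)

theorem sg_sg (x : Sp (n + 2)) : sg n (sg n x) = x := by
  ext i
  simp [sg]

theorem sg_e0 : sg n (e0 n) = e1 n := by
  simp [sg, e0, e1]

theorem sg_e1 : sg n (e1 n) = e0 n := by
  rw [← sg_e0, sg_sg]

/-- centres of the clusters -/
noncomputable def posn (n : ℕ) : Fin 5 → Sp (n + 2) := ![0, e0 n, -e0 n, e1 n, -e1 n]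

/-- upper bounds for the potentials, in hundredths -/
def ubn : Fin 5 → ℕ := ![153, 53, 53, 53, 53]

/-- lower bounds for the inverse distances, in hundredths -/
def Lbn (i j : Fin 5) : ℕ :=
  if i = j then 9900 else if i = 0 ∨ j = 0 then 99 else
    if i.val + j.val = 3 ∨ i.val + j.val = 7 then 49 else 66

/-- upper bounds for the distances of the centres, in tenths -/
def Dn (i j : Fin 5) : ℕ :=
  if i = j then 0 else if i = 0 ∨ j = 0 then 10 else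
    if i.val + j.val = 3 ∨ i.val + j.val = 7 then 20 else 15

theorem table (i j k : Fin 5)
    (h1 : ¬ ((i, j, k) = (0, 1, 2) ∨ (i, j, k) = (0, 2, 1) ∨ (i, j, k) = (1, 0, 2) ∨
      (i, j, k) = (1, 2, 0) ∨ (i, j, k) = (2, 0, 1) ∨ (i, j, k) = (2, 1, 0)))
    (h2 : ¬ ((i, j, k) = (0, 3, 4) ∨ (i, j, k) = (0, 4, 3) ∨ (i, j, k) = (3, 0, 4) ∨
      (i, j, k) = (3, 4, 0) ∨ (i, j, k) = (4, 0, 3) ∨ (i, j, k) = (4, 3, 0))) :
    ubn i + ubn j + ubn k < Lbn i j + Lbn i k + Lbn j k := by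
  revert i j k
  decide

theorem norm_sq_e0_sub_e1 : ‖e0 n - e1 n‖ ^ 2 = 2 := by
  rw [@norm_sub_sq ℝ, norm_e0, norm_e1, inner_e0_e1]; norm_num

theorem norm_sq_e0_add_e1 : ‖e0 n + e1 n‖ ^ 2 = 2 := by
  rw [@norm_add_sq ℝ, norm_e0, norm_e1, inner_e0_e1]; norm_num

theorem norm_e0_sub_e1 : ‖e0 n - e1 n‖ ≤ 15 / 10 := by
  have := norm_sq_e0_sub_e1 (n := n)
  nlinarith [norm_nonneg (e0 n - e1 n)]

theorem norm_e0_add_e1 : ‖e0 n + e1 n‖ ≤ 15 / 10 := by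
  have := norm_sq_e0_add_e1 (n := n)
  nlinarith [norm_nonneg (e0 n + e1 n)]

theorem dist_pos (i j : Fin 5) : ‖posn n i - posn n j‖ ≤ (Dn i j : ℝ) / 10 := by
  have a1 := norm_e0_sub_e1 (n := n)
  have a2 := norm_e0_add_e1 (n := n)
  have b1 : ‖e1 n - e0 n‖ ≤ 15 / 10 := by rwa [norm_sub_rev]
  have b2 : ‖e1 n + e0 n‖ ≤ 15 / 10 := by rwa [add_comm (e1 n)]
  have c1 : ‖-e0 n - e1 n‖ ≤ 15 / 10 := by
    rw [show -e0 n - e1 n = -(e0 n + e1 n) by abel, norm_neg]; exact a2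
  have c2 : ‖-e1 n - e0 n‖ ≤ 15 / 10 := by
    rw [show -e1 n - e0 n = -(e0 n + e1 n) by abel, norm_neg]; exact a2
  have c3 : ‖-e0 n + e1 n‖ ≤ 15 / 10 := by
    rw [show -e0 n + e1 n = -(e0 n - e1 n) by abel, norm_neg]; exact a1
  have c4 : ‖-e1 n + e0 n‖ ≤ 15 / 10 := by
    rw [show -e1 n + e0 n = e0 n - e1 n by abel]; exact a1
  have d1 : ‖e0 n + e0 n‖ = 2 := by rw [← two_smul ℝ, norm_smul, norm_e0]; norm_num
  have d2 : ‖e1 n + e1 n‖ = 2 := by rw [← two_smul ℝ, norm_smul, norm_e1]; norm_num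
  have d3 : ‖-e0 n - e0 n‖ = 2 := by
    rw [show -e0 n - e0 n = -(e0 n + e0 n) by abel, norm_neg]; exact d1
  have d4 : ‖-e1 n - e1 n‖ = 2 := by
    rw [show -e1 n - e1 n = -(e1 n + e1 n) by abel, norm_neg]; exact d2
  have f0 := norm_e0 (n := n)
  have f1 := norm_e1 (n := n)
  fin_cases i <;> fin_cases j <;> simp [posn, Dn, a1, a2, b1, b2, c1, c2, c3, c4, d1, d2, d3, d4,
    f0, f1] <;> linarith

/-- lower bound for the inverse distance of points in two clusters -/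
theorem inv_dist_lower {i j : Fin 5} {p q : Sp (n + 2)} (hp : ‖p - posn n i‖ < 1 / 200)
    (hq : ‖q - posn n j‖ < 1 / 200) (hpq : p ≠ q) : (Lbn i j : ℝ) / 100 ≤ ‖p - q‖⁻¹ := by
  have h0 : 0 < ‖p - q‖ := norm_pos_iff.mpr (sub_ne_zero.mpr hpq)
  have h1 : ‖p - q‖ ≤ (Dn i j : ℝ) / 10 + 1 / 100 := by
    calc ‖p - q‖ = ‖(p - posn n i) + (posn n i - posn n j) - (q - posn n j)‖ := by
          congr 1; abel
      _ ≤ ‖(p - posn n i) + (posn n i - posn n j)‖ + ‖q - posn n j‖ := norm_sub_le _ _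
      _ ≤ ‖p - posn n i‖ + ‖posn n i - posn n j‖ + ‖q - posn n j‖ := by
          gcongr; exact norm_add_le _ _
      _ ≤ _ := by linarith [dist_pos (n := n) i j]
  have h2 : ((Dn i j : ℝ) / 10 + 1 / 100)⁻¹ ≤ ‖p - q‖⁻¹ := by gcongr
  refine le_trans ?_ h2
  rw [← one_div, le_div_iff₀ (by positivity)]
  unfold Lbn Dn
  split_ifs <;> norm_num

end Vale.Agent.P121
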